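import Mathlib

open Matrix

namespace Vale.Agent.P252

variable {n : ℕ}

/-- Matrices `k I + U S Uᵀ`. -/
def gm (U : Matrix (Fin n) (Fin 2) ℝ) (k : ℝ) (S : Matrix (Fin 2) (Fin 2) ℝ) :
    Matrix (Fin n) (Fin n) ℝ := k • (1 : Matrix (Fin n) (Fin n) ℝ) + U * S * Uᵀ

lemma gm_mul (U : Matrix (Fin n) (Fin 2) ℝ) (k k' : ℝ) (S S' : Matrix (Fin 2) (Fin 2) ℝ) :
    gm U k S * gm U k' S' = gm U (k * k') (k • S' + k' • S + S * (Uᵀ * U) * S') := by
  simp only [gm, Matrix.add_mul, Matrix.mul_add, Matrix.smul_mul, Matrix.mul_smul, Matrix.one_mul,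
    Matrix.mul_one, smul_smul, Matrix.mul_assoc, smul_add, mul_comm k' k]
  abel

lemma gm_trace (U : Matrix (Fin n) (Fin 2) ℝ) (k : ℝ) (S : Matrix (Fin 2) (Fin 2) ℝ) :
    (gm U k S).trace = k * n + (S * (Uᵀ * U)).trace := by
  simp only [gm, trace_add, trace_smul, trace_one, Fintype.card_fin, smul_eq_mul]
  rw [Matrix.mul_assoc, trace_mul_comm, Matrix.mul_assoc]

lemma gm_det (U : Matrix (Fin n) (Fin 2) ℝ) (k : ℝ) (hk : k ≠ 0) (S : Matrix (Fin 2) (Fin 2) ℝ) :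
    (gm U k S).det = k ^ n * (1 + (k⁻¹ • S) * (Uᵀ * U)).det := by
  have : gm U k S = k • (1 + U * ((k⁻¹ • S) * Uᵀ)) := by
    simp only [gm, smul_add, Matrix.smul_mul, Matrix.mul_smul, smul_smul, mul_inv_cancel₀ hk,
      one_smul, Matrix.mul_assoc]
  rw [this, det_smul, det_one_add_mul_comm, Fintype.card_fin, Matrix.mul_assoc]

lemma gm_zero (U : Matrix (Fin n) (Fin 2) ℝ) : gm U 1 0 = 1 := by simp [gm]

/-- Symmetric matrices invariant under rotations fixing the two columns of `U`. -/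
def sm (U : Matrix (Fin n) (Fin 2) ℝ) (a b c d : ℝ) : Matrix (Fin n) (Fin n) ℝ :=
  gm U a !![b, c; c, d - a]

lemma sm_apply (U : Matrix (Fin n) (Fin 2) ℝ) (a b c d : ℝ) (i j : Fin n) :
    sm U a b c d i j = a * (if i = j then 1 else 0) + b * (U i 0 * U j 0) +
      c * (U i 0 * U j 1 + U i 1 * U j 0) + (d - a) * (U i 1 * U j 1) := by
  simp [sm, gm, Matrix.mul_apply, Fin.sum_univ_two, Matrix.one_apply]
  ring

lemma sm_symm (U : Matrix (Fin n) (Fin 2) ℝ) (a b c d : ℝ) (i j : Fin n) :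
    sm U a b c d i j = sm U a b c d j i := by
  rw [sm_apply, sm_apply]
  by_cases h : i = j
  · subst h; ring
  · rw [if_neg h, if_neg (Ne.symm h)]; ring

lemma sm_det (U : Matrix (Fin n) (Fin 2) ℝ) (s : ℝ) (hU : Uᵀ * U = !![s, 0; 0, 1])
    (a b c d : ℝ) (ha : a ≠ 0) :
    (sm U a b c d).det = a ^ n * (((a + b * s) * d - c ^ 2 * s) / a ^ 2) := by
  rw [sm, gm_det U a ha, hU, det_fin_two]
  congr 1
  simp
  field_simp
  ring

lemma sm_trace (U : Matrix (Fin n) (Fin 2) ℝ) (s : ℝ) (hU : Uᵀ * U = !![s, 0; 0, 1])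
    (a b c d : ℝ) (ha : a ≠ 0) (hD : (a + b * s) * d - c ^ 2 * s ≠ 0) (α β γ δ : ℝ) :
    ∑ i, ∑ j, (sm U a b c d)⁻¹ i j * sm U α β γ δ i j =
      (n - 2) * α / a + (d * (α + β * s) - 2 * c * γ * s + (a + b * s) * δ) /
        ((a + b * s) * d - c ^ 2 * s) := by
  set D := (a + b * s) * d - c ^ 2 * s with hDd
  have hinv : (sm U a b c d)⁻¹ =
      gm U a⁻¹ !![(c ^ 2 - b * d) / (a * D), -c / D; -c / D, (a + b * s) / D - a⁻¹] := by
    apply inv_eq_right_inv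
    rw [sm, gm_mul, hU, mul_inv_cancel₀ ha, ← gm_zero U]
    congr 1
    ext i j
    fin_cases i <;> fin_cases j <;> simp <;> field_simp <;>
      rw [hDd] <;> ring
  have htr : ∑ i, ∑ j, (sm U a b c d)⁻¹ i j * sm U α β γ δ i j =
      ((sm U a b c d)⁻¹ * sm U α β γ δ).trace := by
    simp only [trace, diag_apply, Matrix.mul_apply]
    refine Finset.sum_congr rfl fun i _ => Finset.sum_congr rfl fun j _ => ?_
    rw [sm_symm U α β γ δ i j]
  rw [htr, hinv, sm, gm_mul, gm_trace, hU, trace_fin_two]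
  simp [Matrix.mul_apply, Fin.sum_univ_two]
  field_simp
  rw [hDd]
  ring

lemma sm_quad (U : Matrix (Fin n) (Fin 2) ℝ) (a b c d : ℝ) (ξ : Fin n → ℝ) :
    ξ ⬝ᵥ (sm U a b c d *ᵥ ξ) = a * (ξ ⬝ᵥ ξ) + b * ((Uᵀ *ᵥ ξ) 0) ^ 2 +
      2 * c * ((Uᵀ *ᵥ ξ) 0) * ((Uᵀ *ᵥ ξ) 1) + (d - a) * ((Uᵀ *ᵥ ξ) 1) ^ 2 := by
  rw [sm, gm, add_mulVec, dotProduct_add, smul_mulVec, one_mulVec, dotProduct_smul,
    ← mulVec_mulVec, ← mulVec_mulVec, dotProduct_mulVec, ← mulVec_transpose]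
  generalize Uᵀ *ᵥ ξ = t
  simp [dotProduct, mulVec, Fin.sum_univ_two]
  ring

end Vale.Agent.P252
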