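import Vale.Agent.P252.Defs
import Vale.Agent.P252.Mat

open Matrix

namespace Vale.Agent.P252

variable {n : ℕ}

/-- Indicator of the distinguished coordinate. -/
def ee (z : Fin n) (i : Fin n) : ℝ := if i = z then 1 else 0

/-- The vector with the distinguished coordinate removed. -/
def vv (z : Fin n) (x : Fin n → ℝ) (i : Fin n) : ℝ := x i - ee z i * x z

noncomputable def rho (z : Fin n) (x : Fin n → ℝ) : ℝ := (∑ i, vv z x i ^ 2) / 2

def UU (z : Fin n) (x : Fin n → ℝ) : Matrix (Fin n) (Fin 2) ℝ :=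
  Matrix.of fun i => ![vv z x i, ee z i]

lemma vv_self (z : Fin n) (x : Fin n → ℝ) : vv z x z = 0 := by simp [vv, ee]

lemma sum_ee (z : Fin n) (g : Fin n → ℝ) : ∑ i, ee z i * g i = g z := by simp [ee]

lemma rho_nonneg (z : Fin n) (x : Fin n → ℝ) : 0 ≤ rho z x :=
  div_nonneg (Finset.sum_nonneg fun _ _ => sq_nonneg _) (by norm_num)

lemma UU_gram (z : Fin n) (x : Fin n → ℝ) :
    (UU z x)ᵀ * UU z x = !![2 * rho z x, 0; 0, 1] := by
  ext a b
  fin_cases a <;> fin_cases b
  · simp [UU, Matrix.mul_apply, rho, sq]; field_simp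
  · simp [UU, Matrix.mul_apply, ee, vv_self]
  · simp [UU, Matrix.mul_apply, ee, vv_self]
  · simp [UU, Matrix.mul_apply, ee]

noncomputable def pr (i : Fin n) : (Fin n → ℝ) →L[ℝ] ℝ := ContinuousLinearMap.proj i

lemma pr_apply (i : Fin n) (h : Fin n → ℝ) : pr i h = h i := rfl

noncomputable def Drho (z : Fin n) (x : Fin n → ℝ) : (Fin n → ℝ) →L[ℝ] ℝ :=
  ∑ i, vv z x i • pr i

lemma hasFDerivAt_coord (i : Fin n) (x : Fin n → ℝ) :
    HasFDerivAt (fun y : Fin n → ℝ => y i) (pr i) x := (pr i).hasFDerivAt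

lemma hasFDerivAt_vv (z i : Fin n) (x : Fin n → ℝ) :
    HasFDerivAt (fun y => vv z y i) (pr i - ee z i • pr z) x :=
  (hasFDerivAt_coord i x).sub ((hasFDerivAt_coord z x).const_mul (ee z i))

lemma hasFDerivAt_rho (z : Fin n) (x : Fin n → ℝ) : HasFDerivAt (rho z) (Drho z x) x := by
  have h1 : HasFDerivAt (fun y => ∑ i, vv z y i ^ 2)
      (∑ i, ((2 : ℕ) • vv z x i ^ (2 - 1)) • (pr i - ee z i • pr z)) x :=
    HasFDerivAt.fun_sum fun i _ => (hasFDerivAt_vv z i x).pow 2
  have h2 := h1.const_mul (1 / 2 : ℝ)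
  have h3 : rho z = fun y => (1 / 2 : ℝ) * ∑ i, vv z y i ^ 2 := by
    ext y; simp only [rho]; ring
  rw [h3]
  refine h2.congr_fderiv ?_
  ext h
  simp only [Drho, _root_.smul_apply, _root_.sum_apply,
    _root_.sub_apply, pr_apply, smul_eq_mul, nsmul_eq_mul, Finset.mul_sum]
  have h4 : ∑ i, ee z i * vv z x i = 0 := by rw [sum_ee, vv_self]
  have h5 : ∀ i, 1 / 2 * ((2 : ℕ) * vv z x i ^ (2 - 1) * (h i - ee z i * h z)) =
      vv z x i * h i - (ee z i * vv z x i) * h z := by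
    intro i; push_cast; ring
  simp only [h5, Finset.sum_sub_distrib, ← Finset.sum_mul, h4, zero_mul, sub_zero]

/-- `F` has differential `a dρ + b dx_z` at `x`. -/
def HD (z : Fin n) (F : (Fin n → ℝ) → ℝ) (a b : ℝ) (x : Fin n → ℝ) : Prop :=
  HasFDerivAt F (a • Drho z x + b • pr z) x

variable {z : Fin n} {F G : (Fin n → ℝ) → ℝ} {a b c d : ℝ} {x : Fin n → ℝ}

lemma HD.congr (h : HD z F a b x) {a' b' : ℝ} (ha : a = a') (hb : b = b') : HD z F a' b' x := by
  rw [← ha, ← hb]; exact h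

lemma HD_rho : HD z (rho z) 1 0 x := by
  simpa [HD] using hasFDerivAt_rho z x

lemma HD_coord : HD z (fun y => y z) 0 1 x := by
  simpa [HD] using hasFDerivAt_coord z x

lemma HD.comp1 {φ : ℝ → ℝ} {φ' : ℝ} (h : HD z F a b x) (hφ : HasDerivAt φ φ' (F x)) :
    HD z (fun y => φ (F y)) (φ' * a) (φ' * b) x := by
  have := hφ.comp_hasFDerivAt x h
  refine this.congr_fderiv ?_
  rw [smul_add, smul_smul, smul_smul]

lemma HD.add (h : HD z F a b x) (k : HD z G c d x) :
    HD z (fun y => F y + G y) (a + c) (b + d) x := by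
  refine (HasFDerivAt.add h k).congr_fderiv ?_
  rw [add_smul, add_smul]; abel

lemma HD.mul (h : HD z F a b x) (k : HD z G c d x) :
    HD z (fun y => F y * G y) (a * G x + F x * c) (b * G x + F x * d) x := by
  refine (HasFDerivAt.mul h k).congr_fderiv ?_
  ext v
  simp only [_root_.add_apply, _root_.smul_apply, smul_eq_mul]
  ring

lemma HD.cmul (h : HD z F a b x) (t : ℝ) : HD z (fun y => t * F y) (t * a) (t * b) x :=
  h.comp1 (φ := fun u => t * u) (by simpa using (hasDerivAt_id (F x)).const_mul t)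

lemma HD.inv (h : HD z F a b x) (h0 : F x ≠ 0) :
    HD z (fun y => (F y)⁻¹) (-(F x ^ 2)⁻¹ * a) (-(F x ^ 2)⁻¹ * b) x :=
  h.comp1 (φ := fun u => u⁻¹) (hasDerivAt_inv h0)

lemma HD_of {φ : ℝ → ℝ} {φ' : ℝ} (hφ : HasDerivAt φ φ' (rho z x)) :
    HD z (fun y => φ (rho z y)) φ' 0 x :=
  (HD_rho.comp1 hφ).congr (mul_one _) (mul_zero _)

lemma Drho_single (j : Fin n) : Drho z x (Pi.single j 1) = vv z x j := by
  simp [Drho, pr_apply, Pi.single_apply]

lemma pr_single (i j : Fin n) : pr i (Pi.single j 1) = if i = j then 1 else 0 := by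
  simp [pr_apply, Pi.single_apply]

lemma HD.pd_eq (h : HD z F a b x) (j : Fin n) : pd j F x = a * vv z x j + b * ee z j := by
  rw [pd, HasFDerivAt.fderiv h]
  simp only [_root_.add_apply, _root_.smul_apply, smul_eq_mul,
    Drho_single, pr_single, ee, eq_comm]

lemma hess_eq {F F1 F2 : (Fin n → ℝ) → ℝ} (hF : ∀ y, HD z F (F1 y) (F2 y) y)
    (h1 : HD z F1 b c x) (h2 : HD z F2 c d x) :
    hess F x = sm (UU z x) (F1 x) b c d := by
  ext i j
  have e : pd j F = fun y => F1 y * vv z y j + F2 y * ee z j := by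
    ext y; exact (hF y).pd_eq j
  have k := ((HasFDerivAt.mul h1 (hasFDerivAt_vv z j x))).add (HasFDerivAt.mul_const h2 (ee z j))
  have k' : HasFDerivAt (fun y => F1 y * vv z y j + F2 y * ee z j) _ x := k
  simp only [hess, of_apply, e]
  rw [pd, k'.fderiv, sm_apply]
  simp only [_root_.add_apply, _root_.smul_apply, smul_eq_mul,
    _root_.sub_apply, Drho_single, pr_single, UU, of_apply, cons_val_zero,
    cons_val_one]
  have e1 : (if z = i then (1:ℝ) else 0) = ee z i := by simp only [ee, eq_comm]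
  have e2 : (if j = i then (1:ℝ) else 0) = if i = j then 1 else 0 := by simp only [eq_comm]
  rw [e1, e2]
  ring

end Vale.Agent.P252
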