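import Vale.Agent.P252.Local

open Set MeasureTheory Filter Topology
open scoped ContDiff NNReal

namespace Vale.Agent.P252

/-- Global existence for a bounded Lipschitz autonomous field. -/
lemma global_ode {E : Type*} [NormedAddCommGroup E] [NormedSpace ℝ E] [CompleteSpace E]
    (v : E → E) (K L : ℝ≥0) (hl : LipschitzWith K v) (hb : ∀ x, ‖v x‖ ≤ L) (x₀ : E) :
    ∃ α : ℝ → E, α 0 = x₀ ∧ ∀ t, HasDerivAt α (v (α t)) t := by
  have key : ∀ n : ℕ, ∃ α : ℝ → E, α 0 = x₀ ∧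
      ∀ t ∈ Ioo (-((n : ℝ) + 1)) ((n : ℝ) + 1), HasDerivAt α (v (α t)) t := by
    intro n
    have hn : (0:ℝ) ≤ (n : ℝ) + 1 := by positivity
    have hpl : IsPicardLindelof (fun _ : ℝ => v)
        (⟨0, by constructor <;> linarith⟩ : Icc (-((n : ℝ) + 1)) ((n : ℝ) + 1)) x₀
        (L * ((n : ℝ≥0) + 1)) 0 L K :=
      { lipschitzOnWith := fun _ _ => hl.lipschitzOnWith
        continuousOn := fun _ _ => continuousOn_const
        norm_le := fun _ _ x _ => hb x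
        mul_max_le := by simp }
    obtain ⟨α, h0, hα⟩ := hpl.exists_eq_forall_mem_Icc_hasDerivWithinAt₀
    exact ⟨α, h0, fun t ht => (hα t (Ioo_subset_Icc_self ht)).hasDerivAt (Icc_mem_nhds ht.1 ht.2)⟩
  choose α h0 hα using key
  have uniq : ∀ n k : ℕ, n ≤ k → EqOn (α n) (α k) (Ioo (-((n : ℝ) + 1)) ((n : ℝ) + 1)) := by
    intro n k hnk
    have hnk' : (n : ℝ) ≤ k := by exact_mod_cast hnk
    have hn : (0:ℝ) < (n : ℝ) + 1 := by positivity
    apply ODE_solution_unique_of_mem_Ioo (v := fun _ => v) (s := fun _ => univ) (K := K) (t₀ := 0)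
    · exact fun _ _ => hl.lipschitzOnWith
    · constructor <;> linarith
    · exact fun t ht => ⟨hα n t ht, trivial⟩
    · exact fun t ht => ⟨hα k t ⟨by linarith [ht.1], by linarith [ht.2]⟩, trivial⟩
    · rw [h0, h0]
  have mem : ∀ t : ℝ, t ∈ Ioo (-((⌈|t|⌉₊ : ℝ) + 1)) ((⌈|t|⌉₊ : ℝ) + 1) := by
    intro t
    have := Nat.le_ceil |t|
    have h1 := le_abs_self t
    have h2 := neg_abs_le t
    constructor <;> linarith
  refine ⟨fun t => α ⌈|t|⌉₊ t, h0 _, fun t => ?_⟩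
  set N := ⌈|t|⌉₊ with hN
  have hE : (fun s => α ⌈|s|⌉₊ s) =ᶠ[𝓝 t] α N := by
    filter_upwards [isOpen_Ioo.mem_nhds (mem t)] with s hs
    rcases le_total ⌈|s|⌉₊ N with h | h
    · exact uniq _ _ h (mem s)
    · exact (uniq _ _ h hs).symm
  exact (hα N t (mem t)).congr_of_eventuallyEq hE

/-- A one-sided barrier. -/
lemma barrier (g g' : ℝ → ℝ) (a : ℝ) (hg : ∀ t, HasDerivAt g (g' t) t) (h0 : g 0 ≤ a)
    (hb : ∀ t, a < g t → g' t ≤ 0) : ∀ t, 0 ≤ t → g t ≤ a := by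
  intro t ht
  apply le_of_forall_pos_le_add
  intro ε hε
  have h1 : 0 < 1 + t := by linarith
  have hη : 0 < ε / (1 + t) := div_pos hε h1
  have := image_le_of_deriv_right_lt_deriv_boundary (f := g) (f' := g') (a := 0) (b := t)
    (fun s _ => (hg s).continuousAt.continuousWithinAt) (fun s _ => (hg s).hasDerivWithinAt)
    (B := fun s => a + ε / (1 + t) * (1 + s)) (B' := fun _ => ε / (1 + t))
    (by simp only [add_zero, mul_one]; linarith)
    (fun s => by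
      simpa using (((hasDerivAt_id s).const_add 1).const_mul (ε / (1 + t))).const_add a)
    (fun s hs h => by
      have : 0 < ε / (1 + t) * (1 + s) := mul_pos hη (by linarith [hs.1])
      have := hb s (by rw [h]; linarith)
      linarith) (x := t) ⟨ht, le_rfl⟩
  rwa [div_mul_cancel₀ _ h1.ne'] at this

/-- Smoothness of solutions of smooth ODEs. -/
lemma ode_smooth {E : Type*} [NormedAddCommGroup E] [NormedSpace ℝ E]
    (f : ℝ → E) (v : ℝ × E → E) (U : Set ℝ) (hU : IsOpen U)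
    (hf : ∀ t ∈ U, HasDerivAt f (v (t, f t)) t) (hv : ∀ t ∈ U, ContDiffAt ℝ ∞ v (t, f t)) :
    ContDiffOn ℝ ∞ f U := by
  rw [contDiffOn_infty]
  intro n
  induction n with
  | zero =>
    have : ContinuousOn f U := fun t ht => (hf t ht).continuousAt.continuousWithinAt
    simpa using this
  | succ n ih =>
    push_cast
    rw [contDiffOn_succ_iff_deriv_of_isOpen hU]
    refine ⟨fun t ht => (hf t ht).differentiableAt.differentiableWithinAt, by simp, ?_⟩
    have : ContDiffOn ℝ n (fun t => v (t, f t)) U := by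
      intro t ht
      have h1 : ContDiffAt ℝ n v (t, f t) := (hv t ht).of_le (by exact_mod_cast le_top)
      exact h1.comp_contDiffWithinAt t (contDiffWithinAt_id.prodMk (ih t ht))
    exact this.congr (fun t ht => (hf t ht).deriv)

/-- The planar vector field. -/
noncomputable def Fld (m : ℝ) (w : ℝ × ℝ) : ℝ × ℝ :=
  (w.1 * (1 + w.2 - w.1),
    w.2 * ((w.2 * (6 * w.1 - m ^ 2) + 2 * w.1 ^ 2 + (2 * m - 3) * w.1 + m ^ 2) / (2 * w.1 + m)))

lemma contDiffAt_Fld (m : ℝ) (w : ℝ × ℝ) (hw : 2 * w.1 + m ≠ 0) : ContDiffAt ℝ ∞ (Fld m) w := by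
  unfold Fld
  fun_prop (disch := exact hw)

/-- The planar system has a global forward solution trapped in a rectangle. -/
lemma planar (m : ℝ) (hm : 9 ≤ m) (x₀ y₀ : ℝ) (hx : 0 < x₀) (hx2 : x₀ ≤ 2) (hy : 1 ≤ y₀)
    (hy2 : y₀ ≤ m / 2 - 1) :
    ∃ α : ℝ → ℝ × ℝ, α 0 = (x₀, y₀) ∧ ∀ t, 0 ≤ t →
      HasDerivAt α (Fld m (α t)) t ∧ 0 < (α t).1 ∧ 1 ≤ (α t).2 := by
  set Kc : Set (ℝ × ℝ) := Icc x₀ (m / 2) ×ˢ Icc 1 (m / 2 - 1) with hK
  have hKc : IsCompact Kc := isCompact_Icc.prod isCompact_Icc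
  have hKv : Convex ℝ Kc := (convex_Icc _ _).prod (convex_Icc _ _)
  have hF : ContDiffOn ℝ ∞ (Fld m) Kc := fun w hw =>
    (contDiffAt_Fld m w (by have := hw.1.1; linarith)).contDiffWithinAt
  obtain ⟨K, hKl⟩ := hF.exists_lipschitzOnWith (by simp) hKv hKc
  obtain ⟨L, hL⟩ := hKc.exists_bound_of_continuousOn hF.continuousOn
  set c : ℝ × ℝ → ℝ × ℝ := fun w => (max x₀ (min w.1 (m / 2)), max 1 (min w.2 (m / 2 - 1)))
    with hc
  have hcl : LipschitzWith 1 c := by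
    have h1 : LipschitzWith 1 (fun w : ℝ × ℝ => max x₀ (min w.1 (m / 2))) :=
      (LipschitzWith.prod_fst.min_const _).const_max _
    have h2 : LipschitzWith 1 (fun w : ℝ × ℝ => max 1 (min w.2 (m / 2 - 1))) :=
      (LipschitzWith.prod_snd.min_const _).const_max _
    simpa using h1.prodMk h2
  have hcm : ∀ w, c w ∈ Kc := fun w =>
    ⟨⟨le_max_left _ _, max_le (by linarith) (min_le_right _ _)⟩,
      ⟨le_max_left _ _, max_le (by linarith) (min_le_right _ _)⟩⟩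
  have hl : LipschitzWith (K * 1) (Fld m ∘ c) := by
    rw [← lipschitzOnWith_univ]
    exact hKl.comp hcl.lipschitzOnWith (fun w _ => hcm w)
  obtain ⟨α, h0, hα⟩ := global_ode (Fld m ∘ c) (K * 1) ⟨max L 0, le_max_right _ _⟩ hl
    (fun w => (hL _ (hcm w)).trans (le_max_left _ _)) (x₀, y₀)
  have d1 : ∀ t, HasDerivAt (fun s => (α s).1) (Fld m (c (α t))).1 t := fun t => (hα t).fst
  have d2 : ∀ t, HasDerivAt (fun s => (α s).2) (Fld m (c (α t))).2 t := fun t => (hα t).snd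
  have b1 : ∀ t, 0 ≤ t → (α t).1 ≤ m / 2 := by
    apply barrier _ _ _ d1 (by simp only [h0]; linarith)
    intro t ht
    obtain ⟨⟨-, -⟩, ⟨-, k4⟩⟩ := hcm (α t)
    have e : (c (α t)).1 = m / 2 := by
      simp only [hc]; rw [min_eq_right ht.le, max_eq_right (by linarith)]
    simp only [Fld, e]
    exact mul_nonpos_of_nonneg_of_nonpos (by linarith) (by linarith)
  have b2 : ∀ t, 0 ≤ t → -(α t).1 ≤ -x₀ := by
    apply barrier _ _ _ (fun t => (d1 t).fun_neg) (by simp only [h0]; linarith)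
    intro t ht
    obtain ⟨⟨-, -⟩, ⟨k3, -⟩⟩ := hcm (α t)
    have e : (c (α t)).1 = x₀ := by
      simp only [hc]; rw [min_eq_left (by linarith), max_eq_left (by linarith)]
    simp only [Fld, e, neg_nonpos]
    exact mul_nonneg hx.le (by linarith)
  have b3 : ∀ t, 0 ≤ t → (α t).2 ≤ m / 2 - 1 := by
    apply barrier _ _ _ d2 (by simp only [h0]; linarith)
    intro t ht
    obtain ⟨⟨k1, k2⟩, ⟨-, -⟩⟩ := hcm (α t)
    have e : (c (α t)).2 = m / 2 - 1 := by
      simp only [hc]; rw [min_eq_right ht.le, max_eq_right (by linarith)]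
    simp only [Fld, e]
    generalize (c (α t)).1 = x at k1 k2
    apply mul_nonpos_of_nonneg_of_nonpos (by linarith)
    apply div_nonpos_of_nonpos_of_nonneg _ (by linarith)
    have h1 : 0 ≤ x * (m / 2 - x) := mul_nonneg (by linarith) (by linarith)
    have h2 : 0 ≤ (m / 2 - x) * (6 * m - 9) := mul_nonneg (by linarith) (by linarith)
    have h3 : 0 ≤ m * (m - 1) * (m - 9) :=
      mul_nonneg (mul_nonneg (by linarith) (by linarith)) (by linarith)
    nlinarith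
  have b4 : ∀ t, 0 ≤ t → -(α t).2 ≤ -1 := by
    apply barrier _ _ _ (fun t => (d2 t).fun_neg) (by simp only [h0]; linarith)
    intro t ht
    obtain ⟨⟨k1, k2⟩, ⟨-, -⟩⟩ := hcm (α t)
    have e : (c (α t)).2 = 1 := by
      simp only [hc]; rw [min_eq_left (by linarith), max_eq_left (by linarith)]
    simp only [Fld, e, neg_nonpos]
    generalize (c (α t)).1 = x at k1 k2
    apply mul_nonneg zero_le_one
    apply div_nonneg _ (by linarith)
    have h1 : 0 ≤ x * (2 * x + 2 * m + 3) := mul_nonneg (by linarith) (by linarith)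
    nlinarith
  refine ⟨α, h0, fun t ht => ⟨?_, by linarith [b2 t ht], by linarith [b4 t ht]⟩⟩
  have e : c (α t) = α t := by
    simp only [hc]
    rw [min_eq_left (b1 t ht), min_eq_left (b3 t ht), max_eq_right (by linarith [b2 t ht]),
      max_eq_right (by linarith [b4 t ht])]
  have := hα t
  rwa [Function.comp_apply, e] at this


theorem exists_pq (m : ℕ) (hm : 9 ≤ m) :
    ∃ ε > 0, ∃ p q : ℝ → ℝ, ContDiffOn ℝ ∞ p (Ioi (-ε)) ∧ ∀ ρ, 0 ≤ ρ →
      0 < p ρ ∧ 0 ≤ q ρ ∧ HasDerivAt p (p ρ * (q ρ - p ρ)) ρ ∧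
      HasDerivAt (fun r => 1 + 2 * r * q r) ((1 + 2 * ρ * q ρ) * Gh m ρ (p ρ) (q ρ)) ρ := by
  obtain ⟨ε, hε, p, q, hp0, hq0, hloc⟩ := exists_local m (by omega)
  have hm' : (9:ℝ) ≤ m := by exact_mod_cast hm
  have h0 : (0:ℝ) ∈ Ioo (-ε) ε := ⟨by linarith, hε⟩
  have cp : ContinuousAt p 0 := (hloc 0 h0).1.continuousAt
  have cq : ContinuousAt q 0 := (hloc 0 h0).2.1.continuousAt
  have e1 : ∀ᶠ r in 𝓝 (0:ℝ), 0 < p r := cp.eventually (lt_mem_nhds (by rw [hp0]; exact one_pos))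
  have e2 : ∀ᶠ r in 𝓝 (0:ℝ), 0 < q r := cq.eventually (lt_mem_nhds hq0)
  have e3 : ∀ᶠ r in 𝓝 (0:ℝ), 2 * r * p r < 2 := by
    have : ContinuousAt (fun r => 2 * r * p r) 0 := by fun_prop
    exact this.eventually (gt_mem_nhds (by simp))
  have e4 : ∀ᶠ r in 𝓝 (0:ℝ), 2 * r * q r < 1 := by
    have : ContinuousAt (fun r => 2 * r * q r) 0 := by fun_prop
    exact this.eventually (gt_mem_nhds (by simp))
  have e5 : ∀ᶠ r in 𝓝 (0:ℝ), r ∈ Ioo (-ε) ε := isOpen_Ioo.mem_nhds h0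
  obtain ⟨δ, hδ, hall⟩ := Metric.eventually_nhds_iff.mp (e1.and (e2.and (e3.and (e4.and e5))))
  set ρ₀ := δ / 2 with hρ₀
  have hρ₀p : 0 < ρ₀ := by positivity
  have hall' : ∀ r, -δ < r → r ≤ ρ₀ → 0 < p r ∧ 0 < q r ∧ 2 * r * p r < 2 ∧ 2 * r * q r < 1 ∧
      r ∈ Ioo (-ε) ε := by
    intro r h1 h2
    apply hall
    rw [Real.dist_eq, sub_zero, abs_lt]
    exact ⟨h1, by linarith⟩
  obtain ⟨a1, a2, a3, a4, a5⟩ := hall' ρ₀ (by linarith) le_rfl
  obtain ⟨α, hα0, hα⟩ := planar m hm' (2 * ρ₀ * p ρ₀) (1 + 2 * ρ₀ * q ρ₀) (by positivity) a3.le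
    (by have : 0 ≤ 2 * ρ₀ * q ρ₀ := by positivity
        linarith) (by linarith)
  set X : ℝ → ℝ × ℝ := fun r => α (Real.log (r / ρ₀) / 2) with hX
  have hXd : ∀ r, ρ₀ ≤ r → HasDerivAt X ((1 / (2 * r)) • Fld m (X r)) r ∧ 0 < (X r).1 ∧
      1 ≤ (X r).2 := by
    intro r hr
    have hr0 : 0 < r := by linarith
    have ht : 0 ≤ Real.log (r / ρ₀) / 2 :=
      div_nonneg (Real.log_nonneg ((one_le_div hρ₀p).mpr hr)) (by norm_num)
    obtain ⟨b1, b2, b3⟩ := hα _ ht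
    refine ⟨?_, b2, b3⟩
    have c1 : HasDerivAt (fun r => Real.log (r / ρ₀) / 2) (1 / (2 * r)) r := by
      have := (((hasDerivAt_id r).div_const ρ₀).log (by simp; constructor <;> linarith)).div_const 2
      refine this.congr_deriv ?_
      simp only [id]
      field_simp
    exact b1.scomp r c1
  set Y : ℝ → ℝ × ℝ := fun r => (2 * r * p r, 1 + 2 * r * q r) with hY
  have hYd : ∀ r, 0 < r → r ≤ ρ₀ → HasDerivAt Y ((1 / (2 * r)) • Fld m (Y r)) r := by
    intro r hr hr'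
    obtain ⟨b1, b2, b3, b4, b5⟩ := hall' r (by linarith) hr'
    obtain ⟨-, -, d1, d2⟩ := hloc r b5
    have d3 : HasDerivAt (fun r => 2 * r * p r) (2 * 1 * p r + 2 * r * (p r * (q r - p r))) r :=
      ((hasDerivAt_id r).const_mul 2).mul d1
    refine (d3.prodMk d2).congr_deriv ?_
    have hne : 4 * r * p r + m ≠ 0 := by positivity
    have hne' : 2 * (2 * r * p r) + m ≠ 0 := by positivity
    simp only [hY, Fld, Gh, Prod.smul_mk, smul_eq_mul, Prod.mk.injEq]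
    constructor
    · field_simp; ring
    · have : 2 * (2 * r * p r) + m = 4 * r * p r + m := by ring
      rw [this]
      field_simp; ring
  have hXY : X ρ₀ = Y ρ₀ := by
    simp only [hX, hY, div_self hρ₀p.ne', Real.log_one, zero_div, hα0]
  set Ξ : ℝ → ℝ × ℝ := fun r => if r ≤ ρ₀ then Y r else X r with hΞ
  have hΞ1 : ∀ r, r ≤ ρ₀ → Ξ r = Y r := fun r hr => by simp only [hΞ, if_pos hr]
  have hΞ2 : ∀ r, ρ₀ ≤ r → Ξ r = X r := fun r hr => by
    rcases hr.eq_or_lt with h | h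
    · rw [← h, hΞ1 _ le_rfl, hXY]
    · simp only [hΞ, if_neg (not_le.mpr h)]
  have hΞd : ∀ r ∈ Ioi (0:ℝ), HasDerivAt Ξ ((1 / (2 * r)) • Fld m (Ξ r)) r := by
    intro r hr
    rcases lt_trichotomy r ρ₀ with h | h | h
    · rw [hΞ1 r h.le]
      refine (hYd r hr h.le).congr_of_eventuallyEq ?_
      filter_upwards [Iio_mem_nhds h] with s hs using hΞ1 s (le_of_lt hs)
    · have l1 : HasDerivWithinAt Ξ ((1 / (2 * r)) • Fld m (Ξ r)) (Iic r) r := by
        rw [hΞ1 r h.le]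
        exact (hYd r hr h.le).hasDerivWithinAt.congr (fun s hs => hΞ1 s (h ▸ hs)) (hΞ1 r h.le)
      have l2 : HasDerivWithinAt Ξ ((1 / (2 * r)) • Fld m (Ξ r)) (Ici r) r := by
        rw [hΞ2 r h.ge]
        exact (hXd r h.ge).1.hasDerivWithinAt.congr (fun s hs => hΞ2 s (h ▸ hs)) (hΞ2 r h.ge)
      have := l1.union l2
      rwa [Iic_union_Ici, hasDerivWithinAt_univ] at this
    · rw [hΞ2 r h.le]
      refine (hXd r h.le).1.congr_of_eventuallyEq ?_
      filter_upwards [Ioi_mem_nhds h] with s hs using hΞ2 s (le_of_lt hs)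
  have hΞp : ∀ r, 0 < r → 0 < (Ξ r).1 ∧ 1 ≤ (Ξ r).2 := by
    intro r hr
    rcases le_total r ρ₀ with h | h
    · obtain ⟨b1, b2, -⟩ := hall' r (by linarith) h
      rw [hΞ1 r h]
      simp only [hY]
      refine ⟨by positivity, ?_⟩
      have : 0 ≤ 2 * r * q r := by positivity
      linarith
    · rw [hΞ2 r h]; exact (hXd r h).2
  have hΞs : ContDiffOn ℝ ∞ Ξ (Ioi 0) := by
    apply ode_smooth Ξ (fun w => (1 / (2 * w.1)) • Fld m w.2) _ isOpen_Ioi hΞd
    intro r hr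
    have h1 : ContDiffAt ℝ ∞ (Fld m) (Ξ r) :=
      contDiffAt_Fld m _ (by have := (hΞp r hr).1; positivity)
    have h2 : ContDiffAt ℝ ∞ (fun w : ℝ × ℝ × ℝ => Fld m w.2) (r, Ξ r) :=
      h1.comp (r, Ξ r) contDiffAt_snd
    have hr' : 2 * r ≠ 0 := by have : 0 < r := hr; positivity
    have h3 : ContDiffAt ℝ ∞ (fun w : ℝ × ℝ × ℝ => 1 / (2 * w.1)) (r, Ξ r) := by
      fun_prop (disch := exact hr')
    exact h3.smul h2
  set P : ℝ → ℝ := fun r => if r ≤ ρ₀ then p r else (Ξ r).1 / (2 * r) with hP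
  set Q : ℝ → ℝ := fun r => if r ≤ ρ₀ then q r else ((Ξ r).2 - 1) / (2 * r) with hQ
  have hP1 : ∀ r, r ≤ ρ₀ → P r = p r := fun r hr => by simp only [hP, if_pos hr]
  have hQ1 : ∀ r, r ≤ ρ₀ → Q r = q r := fun r hr => by simp only [hQ, if_pos hr]
  have hP2 : ∀ r, 0 < r → P r = (Ξ r).1 / (2 * r) := fun r hr => by
    by_cases h : r ≤ ρ₀
    · rw [hP1 r h, hΞ1 r h]; simp only [hY]; field_simp
    · simp only [hP, if_neg h]
  have hQ2 : ∀ r, 0 < r → Q r = ((Ξ r).2 - 1) / (2 * r) := fun r hr => by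
    by_cases h : r ≤ ρ₀
    · rw [hQ1 r h, hΞ1 r h]; simp only [hY]; field_simp; ring
    · simp only [hQ, if_neg h]
  have hPe : ∀ r, r < ρ₀ → P =ᶠ[𝓝 r] p := fun r h => by
    filter_upwards [Iio_mem_nhds h] with s hs using hP1 s (le_of_lt hs)
  have hPe2 : ∀ r, 0 < r → P =ᶠ[𝓝 r] fun r => (Ξ r).1 / (2 * r) := fun r h => by
    filter_upwards [Ioi_mem_nhds h] with s hs using hP2 s hs
  refine ⟨δ, hδ, P, Q, ?_, ?_⟩
  · intro r hr
    apply ContDiffAt.contDiffWithinAt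
    rcases lt_or_ge r ρ₀ with h | h
    · exact (hloc r (hall' r hr h.le).2.2.2.2).1.congr_of_eventuallyEq (hPe r h)
    · have hr0 : 0 < r := by linarith
      refine ContDiffAt.congr_of_eventuallyEq ?_ (hPe2 r hr0)
      have h1 : ContDiffAt ℝ ∞ Ξ r := hΞs.contDiffAt (Ioi_mem_nhds hr0)
      have hr' : 2 * r ≠ 0 := by positivity
      fun_prop (disch := exact hr')
  · intro r hr
    rcases lt_or_ge r ρ₀ with h | h
    · obtain ⟨b1, b2, b3, b4, b5⟩ := hall' r (by linarith) h.le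
      obtain ⟨-, -, d1, d2⟩ := hloc r b5
      rw [hP1 r h.le, hQ1 r h.le]
      refine ⟨b1, b2.le, d1.congr_of_eventuallyEq (hPe r h), d2.congr_of_eventuallyEq ?_⟩
      filter_upwards [Iio_mem_nhds h] with s hs
      rw [hQ1 s (le_of_lt hs)]
    · have hr0 : 0 < r := by linarith
      obtain ⟨b1, b2⟩ := hΞp r hr0
      have d := hΞd r hr0
      have d1 : HasDerivAt (fun r => (Ξ r).1) ((1 / (2 * r)) * (Fld m (Ξ r)).1) r :=
        HasDerivAt.congr_deriv (f' := ((1 / (2 * r)) • Fld m (Ξ r)).1) d.fst rfl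
      have d2 : HasDerivAt (fun r => (Ξ r).2) ((1 / (2 * r)) * (Fld m (Ξ r)).2) r :=
        HasDerivAt.congr_deriv (f' := ((1 / (2 * r)) • Fld m (Ξ r)).2) d.snd rfl
      rw [hP2 r hr0, hQ2 r hr0]
      refine ⟨by positivity, div_nonneg (by linarith) (by positivity), ?_, ?_⟩
      · have d3 : HasDerivAt (fun r : ℝ => 2 * r) (2 * 1) r := (hasDerivAt_id r).const_mul 2
        refine ((d1.div d3 (by positivity)).congr_of_eventuallyEq (hPe2 r hr0)).congr_deriv ?_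
        simp only [Fld]
        field_simp; ring
      · refine (d2.congr_of_eventuallyEq ?_).congr_deriv ?_
        · filter_upwards [Ioi_mem_nhds hr0] with s hs
          have hs0 : 0 < s := hs
          rw [hQ2 s hs]; field_simp; ring
        · simp only [Fld, Gh]
          have e : 4 * r * ((Ξ r).1 / (2 * r)) + m = 2 * (Ξ r).1 + m := by field_simp; ring
          rw [e]
          have hne : 2 * (Ξ r).1 + m ≠ 0 := by positivity
          field_simp; ring

theorem exists_profile (m : ℕ) (hm : 9 ≤ m) :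
    ∃ f p q : ℝ → ℝ, f 0 = 1 ∧ ∀ ρ, 0 ≤ ρ →
      ContDiffAt ℝ ∞ f ρ ∧ 0 < f ρ ∧ 0 < p ρ ∧ 0 ≤ q ρ ∧ HasDerivAt f (2 * p ρ * f ρ) ρ ∧
      HasDerivAt p (p ρ * (q ρ - p ρ)) ρ ∧
      HasDerivAt (fun r => 1 + 2 * r * q r) ((1 + 2 * ρ * q ρ) * Gh m ρ (p ρ) (q ρ)) ρ := by
  obtain ⟨ε, hε, p, q, hs, h⟩ := exists_pq m hm
  set L : ℝ → ℝ := fun r => ∫ t in (0:ℝ)..r, p t with hL
  have hc : ContinuousOn p (Ioi (-ε)) := hs.continuousOn
  have hd : ∀ r ∈ Ioi (-ε), HasDerivAt L (p r) r := by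
    intro r hr
    apply intervalIntegral.integral_hasDerivAt_right
    · apply ContinuousOn.intervalIntegrable
      apply hc.mono
      intro t ht
      have h1 : -ε < min 0 r := lt_min (by linarith) hr
      exact lt_of_lt_of_le h1 ht.1
    · exact hc.stronglyMeasurableAtFilter isOpen_Ioi r hr
    · exact hc.continuousAt (isOpen_Ioi.mem_nhds hr)
  have hLs : ContDiffOn ℝ ∞ L (Ioi (-ε)) := by
    rw [contDiffOn_infty_iff_deriv_of_isOpen isOpen_Ioi]
    exact ⟨fun r hr => (hd r hr).differentiableAt.differentiableWithinAt,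
      hs.congr (fun r hr => (hd r hr).deriv)⟩
  refine ⟨fun r => Real.exp (2 * L r), p, q, by simp [hL], fun ρ hρ => ?_⟩
  have hρ' : ρ ∈ Ioi (-ε) := by simp only [mem_Ioi]; linarith
  obtain ⟨a1, a2, a3, a4⟩ := h ρ hρ
  refine ⟨?_, Real.exp_pos _, a1, a2, ?_, a3, a4⟩
  · have : ContDiffAt ℝ ∞ L ρ := hLs.contDiffAt (isOpen_Ioi.mem_nhds hρ')
    fun_prop
  · exact (((hd ρ hρ').const_mul 2).exp).congr_deriv (by ring)

end Vale.Agent.P252
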