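import Mathlib

open Set MeasureTheory Filter Topology
open scoped unitInterval ContDiff

namespace Vale.Agent.P252

/-- Averaging operator with weight `τ ^ k` on continuous functions on the unit interval. -/
noncomputable def avgFun (k : ℕ) (h : C(I, ℝ)) : C(I, ℝ) where
  toFun ς := ∫ τ in (0:ℝ)..1, τ ^ k * h (ς * projIcc 0 1 zero_le_one τ)
  continuous_toFun := by
    apply intervalIntegral.continuous_parametric_intervalIntegral_of_continuous'
    have h1 : Continuous fun x : I × ℝ => projIcc (0:ℝ) 1 zero_le_one x.2 :=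
      continuous_projIcc.comp continuous_snd
    have h2 : Continuous fun x : I × ℝ => h (x.1 * projIcc (0:ℝ) 1 zero_le_one x.2) :=
      h.continuous.comp (continuous_fst.mul h1)
    exact (continuous_snd.pow k).mul h2

lemma avg_cont (k : ℕ) (h : C(I, ℝ)) (ς : I) :
    Continuous fun τ : ℝ => τ ^ k * h (ς * projIcc 0 1 zero_le_one τ) :=
  (continuous_id.pow k).mul (h.continuous.comp (continuous_const.mul continuous_projIcc))

noncomputable def avg (k : ℕ) : C(I, ℝ) →L[ℝ] C(I, ℝ) :=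
  LinearMap.mkContinuous
    { toFun := avgFun k
      map_add' := fun g h => by
        ext ς
        simp only [avgFun, ContinuousMap.coe_mk, ContinuousMap.add_apply, mul_add]
        exact intervalIntegral.integral_add ((avg_cont k g ς).intervalIntegrable _ _)
          ((avg_cont k h ς).intervalIntegrable _ _)
      map_smul' := fun c h => by
        ext ς
        simp only [avgFun, ContinuousMap.coe_mk, ContinuousMap.smul_apply, smul_eq_mul,
          RingHom.id_apply]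
        rw [← intervalIntegral.integral_const_mul]
        congr 1; ext τ; ring }
    1 (fun h => by
      rw [one_mul, ContinuousMap.norm_le _ (norm_nonneg h)]
      intro ς
      have := intervalIntegral.norm_integral_le_of_norm_le_const (a := (0:ℝ)) (b := 1) (C := ‖h‖)
        (f := fun τ : ℝ => τ ^ k * h (ς * projIcc 0 1 zero_le_one τ)) (by
          intro τ hτ
          rw [uIoc_of_le zero_le_one] at hτ
          rw [norm_mul, norm_pow, Real.norm_eq_abs, abs_of_pos hτ.1]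
          calc τ ^ k * ‖h (ς * projIcc 0 1 zero_le_one τ)‖ ≤ 1 * ‖h‖ :=
                mul_le_mul (pow_le_one₀ hτ.1.le hτ.2) (h.norm_coe_le_norm _) (norm_nonneg _)
                  zero_le_one
            _ = ‖h‖ := one_mul _)
      simpa [avgFun] using this)

lemma avg_apply (k : ℕ) (h : C(I, ℝ)) (ς : I) :
    avg k h ς = ∫ τ in (0:ℝ)..1, τ ^ k * h (ς * projIcc 0 1 zero_le_one τ) := rfl

/-- Rescaling `h ↦ h (μ ·)`. -/
noncomputable def resc (μ : I) : C(I, ℝ) →ₐ[ℝ] C(I, ℝ) :=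
  ContinuousMap.compRightAlgHom ℝ ℝ ⟨fun ς => μ * ς, continuous_const.mul continuous_id⟩

lemma resc_apply (μ : I) (h : C(I, ℝ)) (ς : I) : resc μ h ς = h (μ * ς) := rfl

lemma resc_avg (μ : I) (k : ℕ) (h : C(I, ℝ)) : resc μ (avg k h) = avg k (resc μ h) := by
  ext ς
  simp only [resc_apply, avg_apply, mul_assoc]

/-- The function `ς ↦ ς ^ 2`. -/
noncomputable def sqf : C(I, ℝ) := ⟨fun ς => (ς : ℝ) ^ 2, by fun_prop⟩

lemma resc_sqf (μ : I) : resc μ sqf = ((μ : ℝ) ^ 2) • sqf := by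
  ext ς
  simp [resc_apply, sqf, mul_pow]

lemma norm_resc_le (μ : I) (h : C(I, ℝ)) : ‖resc μ h‖ ≤ ‖h‖ := by
  rw [ContinuousMap.norm_le _ (norm_nonneg h)]
  intro ς
  exact h.norm_coe_le_norm _

lemma avg_one (k : ℕ) : avg k 1 = (1 / ((k : ℝ) + 1)) • (1 : C(I, ℝ)) := by
  ext ς
  simp [avg_apply]


/-- Fixed points of an analytic family of maps that is constant at parameter zero. -/
lemma exists_fixed_family {E : Type*} [NormedAddCommGroup E] [NormedSpace ℝ E] [CompleteSpace E]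
    (Γ : ℝ × E → E) (hΓ : ContDiff ℝ ω Γ) (V₀ : E) (h0 : ∀ V, Γ (0, V) = V₀) :
    ∃ V : ℝ → E, ContDiffAt ℝ ω V 0 ∧ V 0 = V₀ ∧
      ∀ᶠ v in 𝓝 ((0 : ℝ), V₀), (Γ v = v.2 ↔ V v.1 = v.2) := by
  have cdf : ContDiffAt ℝ ω (fun v : ℝ × E => v.2 - Γ v) ((0 : ℝ), V₀) :=
    (contDiff_snd.sub hΓ).contDiffAt
  have hd : HasFDerivAt (fun v : ℝ × E => v.2 - Γ v)
      (fderiv ℝ (fun v : ℝ × E => v.2 - Γ v) ((0 : ℝ), V₀)) ((0 : ℝ), V₀) :=
    (cdf.differentiableAt (by simp)).hasFDerivAt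
  have h1 : HasFDerivAt (fun W : E => ((0 : ℝ), W)) (ContinuousLinearMap.inr ℝ ℝ E) V₀ :=
    hasFDerivAt_prodMk_right (0 : ℝ) V₀
  have h2 := hd.comp V₀ h1
  have h3 : HasFDerivAt ((fun v : ℝ × E => v.2 - Γ v) ∘ fun W : E => ((0 : ℝ), W))
      (ContinuousLinearMap.id ℝ E) V₀ := by
    have : ((fun v : ℝ × E => v.2 - Γ v) ∘ fun W : E => ((0 : ℝ), W)) = fun W => W - V₀ := by
      ext W; simp [h0]
    rw [this]
    exact (hasFDerivAt_id V₀).sub_const V₀
  have h4 := h2.unique h3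
  have hinv : (fderiv ℝ (fun v : ℝ × E => v.2 - Γ v) ((0 : ℝ), V₀) ∘L
      .inr ℝ ℝ E).IsInvertible := by
    rw [h4]; exact ⟨ContinuousLinearEquiv.refl ℝ E, rfl⟩
  refine ⟨cdf.implicitFunction (by simp) hinv, cdf.contDiffAt_implicitFunction _ hinv,
    cdf.implicitFunction_apply_self _ hinv, ?_⟩
  filter_upwards [cdf.eventually_apply_eq_iff_implicitFunction (by simp) hinv] with v hv
  rw [← hv, h0, sub_self, sub_eq_zero, eq_comm]

abbrev Trip := C(I, ℝ) × C(I, ℝ) × C(I, ℝ)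

noncomputable def Ph (l : ℝ) (V : Trip) : C(I, ℝ) :=
  1 + (2 * l) • (sqf * avg 1 (V.1 * (V.2.1 - V.1)))

noncomputable def Zh (m : ℕ) (l : ℝ) (V : Trip) : C(I, ℝ) :=
  (1 / (m : ℝ)) • 1 - (4 * l / m) • (sqf * V.1 * V.2.2)

noncomputable def Nn (m : ℕ) (l : ℝ) (V : Trip) : C(I, ℝ) :=
  (6 + 2 * (m : ℝ)) • (V.1 * V.2.1) + (2 : ℝ) • (V.1 * V.1) +
    V.2.1 * (V.2.1 * ((12 * l) • (sqf * V.1) - ((m : ℝ) ^ 2) • 1) +
      (4 * l) • (sqf * V.1 * V.1) + (2 * (m : ℝ) + 3) • V.1)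

noncomputable def Rh (m : ℕ) (l : ℝ) (V : Trip) : C(I, ℝ) :=
  (2 * (m : ℝ) + 3) • (Ph l V * Zh m l V) + (2 * l) • (sqf * V.2.2 * Nn m l V)

noncomputable def Gam (m : ℕ) (v : ℝ × Trip) : Trip :=
  (Ph v.1 v.2, avg (m + 1) (Rh m v.1 v.2), Zh m v.1 v.2)

lemma contDiff_Gam (m : ℕ) : ContDiff ℝ ω (Gam m) := by
  have hP : ContDiff ℝ ω (fun v : ℝ × Trip => Ph v.1 v.2) := by
    unfold Ph
    fun_prop
  have hZ : ContDiff ℝ ω (fun v : ℝ × Trip => Zh m v.1 v.2) := by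
    unfold Zh
    fun_prop
  have hN : ContDiff ℝ ω (fun v : ℝ × Trip => Nn m v.1 v.2) := by
    unfold Nn
    fun_prop
  have hR : ContDiff ℝ ω (fun v : ℝ × Trip => Rh m v.1 v.2) := by
    unfold Rh
    fun_prop
  unfold Gam
  fun_prop

noncomputable def base (m : ℕ) : Trip :=
  (1, ((2 * (m : ℝ) + 3) / m / (m + 2)) • 1, (1 / (m : ℝ)) • 1)

lemma Gam_zero (m : ℕ) (V : Trip) : Gam m (0, V) = base m := by
  have : Rh m 0 V = ((2 * (m : ℝ) + 3) / m) • (1 : C(I, ℝ)) := by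
    simp [Rh, Ph, Zh, smul_smul, div_eq_mul_inv]
  simp only [Gam, base, this, map_smul, avg_one, smul_smul]
  congr 1
  · simp [Ph]
  congr 1
  · congr 1
    push_cast
    ring
  · simp [Zh]

noncomputable def rescT (μ : I) (V : Trip) : Trip := (resc μ V.1, resc μ V.2.1, resc μ V.2.2)

lemma Gam_resc (m : ℕ) (μ : I) (l : ℝ) (V : Trip) :
    Gam m (l * (μ : ℝ) ^ 2, rescT μ V) = rescT μ (Gam m (l, V)) := by
  have hP : Ph (l * (μ : ℝ) ^ 2) (rescT μ V) = resc μ (Ph l V) := by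
    simp only [Ph, rescT, map_add, map_one, map_smul, map_mul, map_sub, resc_avg, resc_sqf,
      smul_mul_assoc, smul_smul]
    congr 2; ring
  have hZ : Zh m (l * (μ : ℝ) ^ 2) (rescT μ V) = resc μ (Zh m l V) := by
    simp only [Zh, rescT, map_one, map_smul, map_mul, map_sub, resc_sqf,
      smul_mul_assoc, smul_smul]
    congr 2; ring
  have hN : Nn m (l * (μ : ℝ) ^ 2) (rescT μ V) = resc μ (Nn m l V) := by
    simp only [Nn, rescT, map_add, map_one, map_smul, map_mul, map_sub, resc_sqf,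
      smul_mul_assoc, smul_smul, mul_assoc]
  have hR : Rh m (l * (μ : ℝ) ^ 2) (rescT μ V) = resc μ (Rh m l V) := by
    simp only [Rh, hP, hZ, hN]
    simp only [rescT, map_add, map_smul, map_mul, resc_sqf,
      smul_mul_assoc, smul_smul, mul_assoc]
  simp only [Gam, hP, hZ, hR]
  simp only [rescT, resc_avg]

lemma dist_rescT (m : ℕ) (μ : I) (V : Trip) : dist (rescT μ V) (base m) ≤ dist V (base m) := by
  have hb : rescT μ (base m) = base m := by
    simp [rescT, base]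
  have key : ∀ a b : C(I, ℝ), dist (resc μ a) (resc μ b) ≤ dist a b := by
    intro a b
    rw [dist_eq_norm, dist_eq_norm, ← map_sub]
    exact norm_resc_le _ _
  conv_lhs => rw [← hb]
  simp only [rescT, Prod.dist_eq]
  exact max_le_max (key _ _) (max_le_max (key _ _) (key _ _))


/-- The weighted average solves a singular linear ODE. -/
lemma avg_ode (k : ℕ) (h F : ℝ → ℝ) (ε : ℝ) (hh : ContinuousOn h (Ioo (-ε) ε))
    (hF : ∀ l ∈ Ioo (-ε) ε, F l = ∫ τ in (0:ℝ)..1, τ ^ k * h (l * τ ^ 2))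
    (l F' : ℝ) (hl : l ∈ Ioo (-ε) ε) (hd : HasDerivAt F F' l) :
    2 * l * F' + (k + 1) * F l = h l := by
  set U : Set ℝ := {t | l * t ^ 2 ∈ Ioo (-ε) ε} with hU
  have hUo : IsOpen U := isOpen_Ioo.preimage (by fun_prop)
  have hsub : Icc (0:ℝ) 1 ⊆ U := by
    intro t ht
    have h1 : 0 ≤ t ^ 2 := sq_nonneg t
    have h2 : t ^ 2 ≤ 1 := pow_le_one₀ ht.1 ht.2
    obtain ⟨h3, h4⟩ := hl
    constructor
    · by_cases hl0 : 0 ≤ l
      · nlinarith
      · nlinarith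
    · by_cases hl0 : 0 ≤ l
      · nlinarith
      · nlinarith
  have h1U : (1:ℝ) ∈ U := hsub ⟨zero_le_one, le_rfl⟩
  have hfc : ContinuousOn (fun t : ℝ => t ^ k * h (l * t ^ 2)) U := by
    apply ContinuousOn.mul (by fun_prop)
    exact hh.comp (by fun_prop) (fun t ht => ht)
  have hR : HasDerivAt (fun u : ℝ => ∫ t in (0:ℝ)..u, t ^ k * h (l * t ^ 2))
      ((1:ℝ) ^ k * h (l * 1 ^ 2)) 1 := by
    apply intervalIntegral.integral_hasDerivAt_right
      (f := fun t : ℝ => t ^ k * h (l * t ^ 2))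
    · apply ContinuousOn.intervalIntegrable
      rw [uIcc_of_le zero_le_one]
      exact hfc.mono hsub
    · exact hfc.stronglyMeasurableAtFilter hUo 1 h1U
    · exact hfc.continuousAt (hUo.mem_nhds h1U)
  have hL : HasDerivAt (fun u : ℝ => u ^ (k + 1) * F (l * u ^ 2))
      (((k + 1 : ℕ) : ℝ) * 1 ^ k * F (l * 1 ^ 2) + 1 ^ (k + 1) * (F' * (l * (2 * 1)))) 1 := by
    have a1 : HasDerivAt (fun u : ℝ => l * u ^ 2) (l * (2 * 1)) 1 := by
      simpa using (hasDerivAt_pow 2 (1:ℝ)).const_mul l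
    have a2 : HasDerivAt F F' (l * 1 ^ 2) := by simpa using hd
    have a3 := HasDerivAt.comp (1:ℝ) (h₂ := F) (h := fun u : ℝ => l * u ^ 2) a2 a1
    have a4 := hasDerivAt_pow (k + 1) (1:ℝ)
    exact (a4.mul a3).congr_deriv (by simp)
  have hEq : (fun u : ℝ => u ^ (k + 1) * F (l * u ^ 2)) =ᶠ[𝓝 1]
      (fun u : ℝ => ∫ t in (0:ℝ)..u, t ^ k * h (l * t ^ 2)) := by
    filter_upwards [hUo.mem_nhds h1U] with u hu
    rw [hF _ hu]
    have := intervalIntegral.smul_integral_comp_mul_left (a := (0:ℝ)) (b := 1)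
      (fun t : ℝ => t ^ k * h (l * t ^ 2)) u
    simp only [mul_zero, mul_one, smul_eq_mul] at this
    rw [← this, pow_succ, mul_comm (u ^ k) u, mul_assoc, ← intervalIntegral.integral_const_mul]
    congr 2
    ext τ
    rw [mul_pow, mul_pow]
    ring_nf
  have := (hR.congr_of_eventuallyEq hEq).unique hL
  simp only [one_pow, mul_one, one_mul] at this
  rw [this]
  push_cast
  ring


/-- The right side of the equation for `y = 1 + 2 ρ q`, divided by `y`. -/
noncomputable def Gh (m ρ p q : ℝ) : ℝ :=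
  (q * (12 * ρ * p - m ^ 2) + 4 * ρ * p ^ 2 + (2 * m + 3) * p) / (4 * ρ * p + m)

theorem exists_local (m : ℕ) (hm : 0 < m) :
    ∃ ε > 0, ∃ p q : ℝ → ℝ, p 0 = 1 ∧ 0 < q 0 ∧ ∀ ρ ∈ Ioo (-ε) ε,
      ContDiffAt ℝ ∞ p ρ ∧ ContDiffAt ℝ ∞ q ρ ∧ HasDerivAt p (p ρ * (q ρ - p ρ)) ρ ∧
      HasDerivAt (fun r => 1 + 2 * r * q r) ((1 + 2 * ρ * q ρ) * Gh m ρ (p ρ) (q ρ)) ρ := by
  obtain ⟨V, hV, hV0, hev⟩ := exists_fixed_family (Gam m) (contDiff_Gam m) (base m) (Gam_zero m)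
  obtain ⟨δ, hδ, hball⟩ := Metric.eventually_nhds_iff.mp hev
  have hm' : (0:ℝ) < m := by exact_mod_cast hm
  have hc : ContinuousAt V 0 := hV.continuousAt
  have e1 : ∀ᶠ l in 𝓝 (0:ℝ), dist (V l) (base m) < δ := by
    have := Metric.continuousAt_iff'.mp hc δ hδ
    rwa [hV0] at this
  have e2 : ∀ᶠ l in 𝓝 (0:ℝ), ContDiffAt ℝ ω V l := hV.eventually (by simp)
  have e3 : ∀ᶠ l in 𝓝 (0:ℝ), dist l 0 < δ := Metric.ball_mem_nhds _ hδ
  obtain ⟨ε, hε, hall⟩ := Metric.eventually_nhds_iff.mp (e1.and (e2.and e3))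
  have hall' : ∀ l ∈ Ioo (-ε) ε, dist (V l) (base m) < δ ∧ ContDiffAt ℝ ω V l ∧ dist l 0 < δ := by
    intro l hl
    apply hall
    rw [Real.dist_eq, sub_zero, abs_lt]; exact hl
  have hfix : ∀ l ∈ Ioo (-ε) ε, Gam m (l, V l) = V l := by
    intro l hl
    obtain ⟨a, -, c⟩ := hall' l hl
    refine (hball (y := (l, V l)) ?_).mpr rfl
    rw [Prod.dist_eq]; exact max_lt c a
  have hsc : ∀ l ∈ Ioo (-ε) ε, ∀ μ : I, V (l * (μ : ℝ) ^ 2) = rescT μ (V l) := by
    intro l hl μ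
    obtain ⟨a, -, c⟩ := hall' l hl
    refine (hball (y := (l * (μ : ℝ) ^ 2, rescT μ (V l))) ?_).mp ?_
    · rw [Prod.dist_eq]
      refine max_lt ?_ ((dist_rescT m μ _).trans_lt a)
      refine lt_of_le_of_lt ?_ c
      simp only [Real.dist_eq, sub_zero, abs_mul, abs_pow]
      have h1 : |(μ : ℝ)| ^ 2 ≤ 1 := pow_le_one₀ (abs_nonneg _)
        (by rw [abs_of_nonneg μ.2.1]; exact μ.2.2)
      nlinarith [abs_nonneg l]
    · rw [Gam_resc, hfix l hl]
  let ev : C(I, ℝ) →L[ℝ] ℝ := ContinuousMap.evalCLM ℝ (1 : I)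
  have hev1 : ∀ h : C(I, ℝ), ev h = h 1 := fun h => rfl
  set p : ℝ → ℝ := fun l => ev (V l).1 with hp
  set q : ℝ → ℝ := fun l => ev (V l).2.1 with hq
  set z : ℝ → ℝ := fun l => ev (V l).2.2 with hz
  set F : ℝ → ℝ := fun l => ev (avg 1 ((V l).1 * ((V l).2.1 - (V l).1))) with hF
  have cp : ∀ l ∈ Ioo (-ε) ε, ContDiffAt ℝ ω p l := fun l hl => by
    have := (hall' l hl).2.1; simp only [hp]; fun_prop
  have cq : ∀ l ∈ Ioo (-ε) ε, ContDiffAt ℝ ω q l := fun l hl => by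
    have := (hall' l hl).2.1; simp only [hq]; fun_prop
  have cz : ∀ l ∈ Ioo (-ε) ε, ContDiffAt ℝ ω z l := fun l hl => by
    have := (hall' l hl).2.1; simp only [hz]; fun_prop
  have cF : ∀ l ∈ Ioo (-ε) ε, ContDiffAt ℝ ω F l := fun l hl => by
    have := (hall' l hl).2.1; simp only [hF]; fun_prop
  have vp : ∀ l ∈ Ioo (-ε) ε, ∀ μ : I, (V l).1 μ = p (l * (μ : ℝ) ^ 2) := fun l hl μ => by
    simp only [hp, hsc l hl μ, hev1, rescT, resc_apply, mul_one]
  have vq : ∀ l ∈ Ioo (-ε) ε, ∀ μ : I, (V l).2.1 μ = q (l * (μ : ℝ) ^ 2) := fun l hl μ => by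
    simp only [hq, hsc l hl μ, hev1, rescT, resc_apply, mul_one]
  have vz : ∀ l ∈ Ioo (-ε) ε, ∀ μ : I, (V l).2.2 μ = z (l * (μ : ℝ) ^ 2) := fun l hl μ => by
    simp only [hz, hsc l hl μ, hev1, rescT, resc_apply, mul_one]
  have fP : ∀ l ∈ Ioo (-ε) ε, Ph l (V l) = (V l).1 := fun l hl =>
    congrArg Prod.fst (hfix l hl)
  have fQ : ∀ l ∈ Ioo (-ε) ε, avg (m + 1) (Rh m l (V l)) = (V l).2.1 := fun l hl =>
    congrArg (fun W : Trip => W.2.1) (hfix l hl)
  have fZ : ∀ l ∈ Ioo (-ε) ε, Zh m l (V l) = (V l).2.2 := fun l hl =>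
    congrArg (fun W : Trip => W.2.2) (hfix l hl)
  have eP : ∀ l ∈ Ioo (-ε) ε, p l = 1 + 2 * l * F l := fun l hl => by
    have := congrArg ev (fP l hl)
    simp only [hp, hF, ← this]
    simp [Ph, hev1, sqf]
  have eZ : ∀ l ∈ Ioo (-ε) ε, z l * (4 * l * p l + m) = 1 := fun l hl => by
    have := congrArg ev (fZ l hl)
    have h2 : z l = 1 / m - 4 * l / m * (p l * z l) := by
      conv_lhs => simp only [hz, ← this]
      simp [Zh, hev1, sqf, hp, hz]
    field_simp at h2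
    linarith
  have iF : ∀ l ∈ Ioo (-ε) ε, F l = ∫ τ in (0:ℝ)..1, τ ^ 1 *
      (fun r => p r * (q r - p r)) (l * τ ^ 2) := fun l hl => by
    simp only [hF, hev1, avg_apply]
    apply intervalIntegral.integral_congr
    intro τ hτ
    rw [uIcc_of_le zero_le_one] at hτ
    simp only [one_mul, projIcc_of_mem _ hτ, ContinuousMap.mul_apply, ContinuousMap.sub_apply,
      vp l hl, vq l hl]
  set R : ℝ → ℝ := fun r => (2 * m + 3) * (p r * z r) + 2 * r * (z r *
    ((6 + 2 * m) * (p r * q r) + 2 * (p r * p r) + q r * (q r * (12 * r * p r - m ^ 2)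
      + 4 * r * (p r * p r) + (2 * m + 3) * p r))) with hR
  have iQ : ∀ l ∈ Ioo (-ε) ε, q l = ∫ τ in (0:ℝ)..1, τ ^ (m + 1) * R (l * τ ^ 2) := fun l hl => by
    have : q l = ev (avg (m + 1) (Rh m l (V l))) := (congrArg ev (fQ l hl)).symm
    rw [this, hev1, avg_apply]
    apply intervalIntegral.integral_congr
    intro τ hτ
    rw [uIcc_of_le zero_le_one] at hτ
    simp only [one_mul, projIcc_of_mem _ hτ, Rh, fP l hl, fZ l hl, Nn, hR]
    simp only [ContinuousMap.mul_apply, ContinuousMap.sub_apply, ContinuousMap.add_apply,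
      ContinuousMap.smul_apply, ContinuousMap.one_apply, smul_eq_mul,
      vp l hl, vq l hl, vz l hl, sqf, ContinuousMap.coe_mk]
    ring
  have kp : ContinuousOn p (Ioo (-ε) ε) := fun l hl => (cp l hl).continuousAt.continuousWithinAt
  have kq : ContinuousOn q (Ioo (-ε) ε) := fun l hl => (cq l hl).continuousAt.continuousWithinAt
  have kz : ContinuousOn z (Ioo (-ε) ε) := fun l hl => (cz l hl).continuousAt.continuousWithinAt
  refine ⟨ε, hε, p, q, ?_, ?_, fun ρ hρ => ⟨(cp ρ hρ).of_le le_top, (cq ρ hρ).of_le le_top, ?_, ?_⟩⟩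
  · simp [hp, hV0, base, hev1]
  · simp only [hq, hV0, base, hev1, ContinuousMap.smul_apply, ContinuousMap.one_apply,
      smul_eq_mul, mul_one]
    positivity
  · have dF := ((cF ρ hρ).differentiableAt (by simp)).hasDerivAt
    have := avg_ode 1 (fun r => p r * (q r - p r)) F ε (kp.mul (kq.sub kp)) iF ρ _ hρ dF
    have d2 : HasDerivAt (fun l => 1 + 2 * l * F l) (2 * 1 * F ρ + 2 * ρ * deriv F ρ) ρ :=
      ((((hasDerivAt_id ρ).const_mul 2).mul dF).const_add 1)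
    have hE : p =ᶠ[𝓝 ρ] fun l => 1 + 2 * l * F l := by
      filter_upwards [isOpen_Ioo.mem_nhds hρ] with l hl using eP l hl
    refine (d2.congr_of_eventuallyEq hE).congr_deriv ?_
    push_cast at this
    linarith
  · have dq := ((cq ρ hρ).differentiableAt (by simp)).hasDerivAt
    have kR : ContinuousOn R (Ioo (-ε) ε) := by
      simp only [hR]
      fun_prop
    have := avg_ode (m + 1) R q ε kR iQ ρ _ hρ dq
    have d2 : HasDerivAt (fun l => 1 + 2 * l * q l) (2 * 1 * q ρ + 2 * ρ * deriv q ρ) ρ :=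
      ((((hasDerivAt_id ρ).const_mul 2).mul dq).const_add 1)
    refine d2.congr_deriv ?_
    have hz1 := eZ ρ hρ
    have hz2 : (4 * ρ * p ρ + m)⁻¹ = z ρ := inv_eq_of_mul_eq_one_left hz1
    push_cast at this
    have h3 : 2 * 1 * q ρ + 2 * ρ * deriv q ρ = R ρ - m * q ρ := by linarith
    rw [h3]
    simp only [hR, Gh, div_eq_mul_inv, hz2]
    linear_combination (m * q ρ) * hz1

end Vale.Agent.P252
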