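import Vale.Agent.P252.Calc
import Vale.Agent.P252.Global

open Matrix
open scoped ContDiff

namespace Vale.Agent.P252

/-- The properties of the profile functions. -/
def Prof (m : ℕ) (f p q : ℝ → ℝ) : Prop := ∀ ρ, 0 ≤ ρ →
  ContDiffAt ℝ ∞ f ρ ∧ 0 < f ρ ∧ 0 < p ρ ∧ 0 ≤ q ρ ∧ HasDerivAt f (2 * p ρ * f ρ) ρ ∧
  HasDerivAt p (p ρ * (q ρ - p ρ)) ρ ∧
  HasDerivAt (fun r => 1 + 2 * r * q r) ((1 + 2 * ρ * q ρ) * Gh m ρ (p ρ) (q ρ)) ρ

variable {m : ℕ} {f p q : ℝ → ℝ} {z : Fin (m + 1)}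

noncomputable def Vf (f : ℝ → ℝ) (z : Fin (m + 1)) (x : Fin (m + 1) → ℝ) : ℝ :=
  f (rho z x) + x z * x z

noncomputable def uf (f : ℝ → ℝ) (z : Fin (m + 1)) (x : Fin (m + 1) → ℝ) : ℝ :=
  Real.sqrt (Vf f z x)

lemma Vf_pos (h : Prof m f p q) (x : Fin (m + 1) → ℝ) : 0 < Vf f z x :=
  add_pos_of_pos_of_nonneg (h _ (rho_nonneg z x)).2.1 (mul_self_nonneg _)

lemma uf_pos (h : Prof m f p q) (x : Fin (m + 1) → ℝ) : 0 < uf f z x :=
  Real.sqrt_pos.mpr (Vf_pos h x)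

lemma uf_sq (h : Prof m f p q) (x : Fin (m + 1) → ℝ) :
    uf f z x ^ 2 = f (rho z x) + x z * x z :=
  Real.sq_sqrt (Vf_pos h x).le

lemma contDiff_uf (h : Prof m f p q) : ContDiff ℝ ∞ (uf f z) := by
  rw [contDiff_iff_contDiffAt]
  intro x
  have h1 : ContDiff ℝ ∞ (rho z) := by
    unfold rho vv
    fun_prop
  have h2 : ContDiffAt ℝ ∞ (fun y => f (rho z y)) x :=
    (h _ (rho_nonneg z x)).1.comp x h1.contDiffAt
  have h3 : ContDiffAt ℝ ∞ (Vf f z) x := by
    unfold Vf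
    exact h2.add (by fun_prop)
  exact h3.sqrt (Vf_pos h x).ne'

lemma HD_f (h : Prof m f p q) (x : Fin (m + 1) → ℝ) :
    HD z (fun y => f (rho z y)) (2 * p (rho z x) * f (rho z x)) 0 x :=
  HD_of (h _ (rho_nonneg z x)).2.2.2.2.1

lemma HD_p (h : Prof m f p q) (x : Fin (m + 1) → ℝ) :
    HD z (fun y => p (rho z y)) (p (rho z x) * (q (rho z x) - p (rho z x))) 0 x :=
  HD_of (h _ (rho_nonneg z x)).2.2.2.2.2.1

lemma HD_y (h : Prof m f p q) (x : Fin (m + 1) → ℝ) :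
    HD z (fun y => 1 + 2 * rho z y * q (rho z y))
      ((1 + 2 * rho z x * q (rho z x)) * Gh m (rho z x) (p (rho z x)) (q (rho z x))) 0 x :=
  HD_of (φ := fun r => 1 + 2 * r * q r) (h _ (rho_nonneg z x)).2.2.2.2.2.2

lemma HD_V (h : Prof m f p q) (x : Fin (m + 1) → ℝ) :
    HD z (Vf f z) (2 * p (rho z x) * f (rho z x)) (2 * x z) x :=
  ((HD_f h x).add (HD_coord.mul HD_coord)).congr (by ring) (by ring)

lemma HD_u (h : Prof m f p q) (x : Fin (m + 1) → ℝ) :
    HD z (uf f z) (p (rho z x) * f (rho z x) * (uf f z x)⁻¹) (x z * (uf f z x)⁻¹) x := by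
  have hu := (uf_pos h (z := z) x).ne'
  refine ((HD_V h x).comp1 (Real.hasDerivAt_sqrt (Vf_pos h x).ne')).congr ?_ ?_
  · change 1 / (2 * uf f z x) * _ = _
    field_simp
  · change 1 / (2 * uf f z x) * _ = _
    field_simp

lemma hess_u (h : Prof m f p q) (x : Fin (m + 1) → ℝ) :
    hess (uf f z) x = sm (UU z x) (p (rho z x) * f (rho z x) * (uf f z x)⁻¹)
      (p (rho z x) * f (rho z x) * (q (rho z x) + p (rho z x)) / uf f z x -
        (p (rho z x) * f (rho z x)) ^ 2 / uf f z x ^ 3)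
      (-(p (rho z x) * f (rho z x) * x z) / uf f z x ^ 3)
      (f (rho z x) / uf f z x ^ 3) := by
  have hu := (uf_pos h (z := z) x).ne'
  have hs := uf_sq h (z := z) x
  apply hess_eq (HD_u h)
  · refine (((HD_p h x).mul (HD_f h x)).mul ((HD_u h x).inv hu)).congr ?_ ?_
    · field_simp; ring
    · field_simp; ring
  · refine (HD_coord.mul ((HD_u h x).inv hu)).congr ?_ ?_
    · field_simp; ring
    · field_simp; linear_combination hs

lemma delta_u (h : Prof m f p q) (x : Fin (m + 1) → ℝ) :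
    (p (rho z x) * f (rho z x) * (uf f z x)⁻¹ +
      (p (rho z x) * f (rho z x) * (q (rho z x) + p (rho z x)) / uf f z x -
        (p (rho z x) * f (rho z x)) ^ 2 / uf f z x ^ 3) * (2 * rho z x)) *
      (f (rho z x) / uf f z x ^ 3) -
      (-(p (rho z x) * f (rho z x) * x z) / uf f z x ^ 3) ^ 2 * (2 * rho z x) =
    p (rho z x) * f (rho z x) ^ 2 * (1 + 2 * rho z x * q (rho z x)) / uf f z x ^ 4 := by
  have hu := (uf_pos h (z := z) x).ne'
  have hs := uf_sq h (z := z) x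
  field_simp
  linear_combination (2 * rho z x * p (rho z x) ^ 2 * f (rho z x) ^ 2) * hs

lemma det_u (h : Prof m f p q) (x : Fin (m + 1) → ℝ) :
    (hess (uf f z) x).det = p (rho z x) ^ m * f (rho z x) ^ (m + 1) *
      (1 + 2 * rho z x * q (rho z x)) / uf f z x ^ (m + 3) := by
  have hu := (uf_pos h (z := z) x).ne'
  obtain ⟨-, hf, hp, -⟩ := h _ (rho_nonneg z x)
  rw [hess_u h, sm_det _ _ (UU_gram z x) _ _ _ _ (by positivity), delta_u h]
  rw [mul_pow, mul_pow, inv_pow]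
  field_simp
  ring

lemma posDef_u (h : Prof m f p q) (x : Fin (m + 1) → ℝ) : (hess (uf f z) x).PosDef := by
  have hu := uf_pos h (z := z) x
  have hs := uf_sq h (z := z) x
  obtain ⟨-, hf, hp, hq, -⟩ := h _ (rho_nonneg z x)
  rw [hess_u h]
  apply Matrix.PosDef.of_dotProduct_mulVec_pos
  · ext i j
    simp only [conjTranspose_apply, star_trivial]
    exact sm_symm _ _ _ _ _ _ _
  · intro ξ hξ
    rw [star_trivial, sm_quad]
    have e1 : ((UU z x)ᵀ *ᵥ ξ) 1 = ξ z := by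
      simp [UU, mulVec, dotProduct, ee]
    have e0 : ((UU z x)ᵀ *ᵥ ξ) 0 = ∑ i, vv z x i * vv z ξ i := by
      have : ∀ i, vv z x i * vv z ξ i = vv z x i * ξ i - (ee z i * vv z x i) * ξ z := by
        intro i; simp only [vv]; ring
      simp only [this, Finset.sum_sub_distrib, ← Finset.sum_mul, sum_ee, vv_self, zero_mul,
        sub_zero]
      simp [UU, mulVec, dotProduct]
    have e2 : ξ ⬝ᵥ ξ = 2 * rho z ξ + ξ z ^ 2 := by
      have : ∀ i, vv z ξ i ^ 2 = ξ i * ξ i - ee z i * (ξ i * ξ z) := by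
        intro i
        by_cases hi : i = z
        · subst hi; simp [vv, ee]
        · simp [vv, ee, hi, sq]
      simp only [rho, this, Finset.sum_sub_distrib, sum_ee, dotProduct]
      ring
    rw [e1, e0, e2]
    set t := ∑ i, vv z x i * vv z ξ i with ht
    have key : p (rho z x) * f (rho z x) * (uf f z x)⁻¹ * (2 * rho z ξ + ξ z ^ 2) +
        (p (rho z x) * f (rho z x) * (q (rho z x) + p (rho z x)) / uf f z x -
          (p (rho z x) * f (rho z x)) ^ 2 / uf f z x ^ 3) * t ^ 2 +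
        2 * (-(p (rho z x) * f (rho z x) * x z) / uf f z x ^ 3) * t * ξ z +
        (f (rho z x) / uf f z x ^ 3 - p (rho z x) * f (rho z x) * (uf f z x)⁻¹) * ξ z ^ 2 =
        p (rho z x) * f (rho z x) / uf f z x * (2 * rho z ξ + q (rho z x) * t ^ 2) +
        f (rho z x) / uf f z x ^ 3 * (ξ z - p (rho z x) * x z * t) ^ 2 := by
      field_simp
      linear_combination (p (rho z x) ^ 2 * t ^ 2) * hs
    rw [key]
    rcases (rho_nonneg z ξ).eq_or_lt with h0 | h0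
    · have hv : ∀ i, vv z ξ i = 0 := by
        intro i
        have h1 : ∑ i, vv z ξ i ^ 2 = 0 := by
          simp only [rho] at h0; linarith
        exact pow_eq_zero_iff (two_ne_zero) |>.mp
          ((Finset.sum_eq_zero_iff_of_nonneg (fun _ _ => sq_nonneg _)).mp h1 i (Finset.mem_univ i))
      have ht0 : t = 0 := by simp [ht, hv]
      have hz : ξ z ≠ 0 := by
        intro hz
        apply hξ
        ext i
        have := hv i
        simpa [vv, hz] using this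
      rw [← h0, ht0]
      have : 0 < ξ z ^ 2 := by positivity
      simp only [mul_zero, sub_zero, ne_eq, OfNat.ofNat_ne_zero, not_false_eq_true, zero_pow,
        add_zero, zero_add]
      positivity
    · positivity


noncomputable def kap (m : ℕ) (p q : ℝ → ℝ) (r : ℝ) : ℝ :=
  (m + 2) * p r * (4 * r * p r + 2 * (1 + 2 * r * q r) + m - 1) / (4 * r * p r + m)

noncomputable def kap' (m : ℕ) (p q : ℝ → ℝ) (r : ℝ) : ℝ :=
  (m + 2) * ((p r * (q r - p r) * (4 * r * p r + 2 * (1 + 2 * r * q r) + m - 1) +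
    p r * (4 * p r + 4 * r * (p r * (q r - p r)) +
      2 * ((1 + 2 * r * q r) * Gh m r (p r) (q r)))) * (4 * r * p r + m) -
    p r * (4 * r * p r + 2 * (1 + 2 * r * q r) + m - 1) *
      (4 * p r + 4 * r * (p r * (q r - p r)))) / (4 * r * p r + m) ^ 2

lemma hasDerivAt_kap (hm : 0 < m) (h : Prof m f p q) (r : ℝ) (hr : 0 ≤ r) :
    HasDerivAt (kap m p q) (kap' m p q r) r := by
  obtain ⟨-, hf, hp, hq, -, d1, d2⟩ := h r hr
  have hm' : (0:ℝ) < m := by exact_mod_cast hm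
  have hne : 4 * r * p r + m ≠ 0 := by positivity
  have d3 : HasDerivAt (fun r => 4 * r * p r) (4 * 1 * p r + 4 * r * (p r * (q r - p r))) r :=
    ((hasDerivAt_id r).const_mul 4).mul d1
  have d4 := (((d1.const_mul ((m:ℝ) + 2)).fun_mul
    (((d3.fun_add (d2.const_mul 2)).add_const (m:ℝ)).sub_const 1)).fun_div
    (d3.add_const (m:ℝ)) hne)
  refine HasDerivAt.congr_deriv (f := kap m p q) d4 ?_
  simp only [kap']
  congr 1
  ring

noncomputable def Lam (m : ℕ) (f p q : ℝ → ℝ) (z : Fin (m + 1)) (x : Fin (m + 1) → ℝ) : ℝ :=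
  -(((m:ℝ) + 2) / (m + 3)) * (m * Real.log (p (rho z x)) + (m + 1) * Real.log (f (rho z x)) +
    Real.log (1 + 2 * rho z x * q (rho z x))) + ((m + 2) / 2) * Real.log (Vf f z x)

noncomputable def Af (m : ℕ) (f p q : ℝ → ℝ) (z : Fin (m + 1)) (x : Fin (m + 1) → ℝ) : ℝ :=
  (-1) * kap m p q (rho z x) + (m + 2) * (p (rho z x) * f (rho z x) * (Vf f z x)⁻¹)

noncomputable def Bf (m : ℕ) (f : ℝ → ℝ) (z : Fin (m + 1)) (x : Fin (m + 1) → ℝ) : ℝ :=
  (m + 2) * (x z * (Vf f z x)⁻¹)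

lemma HD_Lam (hm : 0 < m) (h : Prof m f p q) (x : Fin (m + 1) → ℝ) :
    HD z (Lam m f p q z) (Af m f p q z x) (Bf m f z x) x := by
  obtain ⟨-, hf, hp, hq, -⟩ := h _ (rho_nonneg z x)
  have hr := rho_nonneg z x
  have hV := Vf_pos h (z := z) x
  have hm' : (0:ℝ) < m := by exact_mod_cast hm
  have hy : 0 < 1 + 2 * rho z x * q (rho z x) := by positivity
  have hne : 4 * rho z x * p (rho z x) + m ≠ 0 := by positivity
  have l1 := ((HD_p h x).comp1 (Real.hasDerivAt_log hp.ne')).cmul (m:ℝ)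
  have l2 := ((HD_f h x).comp1 (Real.hasDerivAt_log hf.ne')).cmul ((m:ℝ) + 1)
  have l3 := (HD_y h x).comp1 (Real.hasDerivAt_log hy.ne')
  have l4 := ((HD_V h x).comp1 (Real.hasDerivAt_log hV.ne')).cmul (((m:ℝ) + 2) / 2)
  refine ((((l1.add l2).add l3).cmul (-(((m:ℝ) + 2) / (m + 3)))).add l4).congr ?_ ?_
  · simp only [Af, kap, Gh]
    field_simp
    ring
  · simp only [Bf]
    field_simp
    ring

lemma w_eq (h : Prof m f p q) :
    (fun y => (hess (uf f z) y).det ^ (-(((m + 1 : ℕ) : ℝ) + 1) / (((m + 1 : ℕ) : ℝ) + 2))) =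
      fun y => Real.exp (Lam m f p q z y) := by
  ext x
  obtain ⟨-, hf, hp, hq, -⟩ := h _ (rho_nonneg z x)
  have hr := rho_nonneg z x
  have hV := Vf_pos h (z := z) x
  have hu := uf_pos h (z := z) x
  have hy : 0 < 1 + 2 * rho z x * q (rho z x) := by positivity
  rw [det_u h, Real.rpow_def_of_pos (by positivity)]
  congr 1
  rw [Real.log_div (by positivity) (by positivity), Real.log_mul (by positivity) hy.ne',
    Real.log_mul (by positivity) (by positivity), Real.log_pow, Real.log_pow, Real.log_pow, uf,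
    Real.log_sqrt hV.le, Lam]
  push_cast
  field_simp
  ring

lemma hess_w (hm : 0 < m) (h : Prof m f p q) (x : Fin (m + 1) → ℝ) :
    hess (fun y => Real.exp (Lam m f p q z y)) x =
      sm (UU z x) (Real.exp (Lam m f p q z x) * Af m f p q z x)
      (Real.exp (Lam m f p q z x) * (Af m f p q z x ^ 2 - kap' m p q (rho z x) +
        (m + 2) * (p (rho z x) * f (rho z x) * (q (rho z x) + p (rho z x)) / Vf f z x -
          2 * (p (rho z x) * f (rho z x)) ^ 2 / Vf f z x ^ 2)))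
      (Real.exp (Lam m f p q z x) * (Af m f p q z x * Bf m f z x -
        2 * (m + 2) * p (rho z x) * f (rho z x) * x z / Vf f z x ^ 2))
      (Real.exp (Lam m f p q z x) * (Bf m f z x ^ 2 +
        (m + 2) * (1 / Vf f z x - 2 * x z ^ 2 / Vf f z x ^ 2))) := by
  have hV := (Vf_pos h (z := z) x).ne'
  have hW : ∀ y, HD z (fun y => Real.exp (Lam m f p q z y))
      (Real.exp (Lam m f p q z y) * Af m f p q z y)
      (Real.exp (Lam m f p q z y) * Bf m f z y) y :=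
    fun y => (HD_Lam hm h y).comp1 (Real.hasDerivAt_exp _)
  have hA := ((HD_of (hasDerivAt_kap hm h _ (rho_nonneg z x))).cmul (-1)).add
    ((((HD_p h x).mul (HD_f h x)).mul ((HD_V h x).inv hV)).cmul ((m:ℝ) + 2))
  have hB := (HD_coord.mul ((HD_V h x).inv hV)).cmul ((m:ℝ) + 2)
  apply hess_eq hW
  · refine ((hW x).mul hA).congr ?_ ?_
    · simp only [Af]; field_simp; ring
    · simp only [Af, Bf]; field_simp; ring
  · refine ((hW x).mul hB).congr ?_ ?_
    · simp only [Af, Bf]; field_simp; ring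
    · simp only [Bf]; field_simp; ring

lemma final_alg (m ρ p q f z u W κ κ' : ℝ) (hm : 0 < m) (hρ : 0 ≤ ρ) (hp : 0 < p) (hq : 0 ≤ q)
    (hf : 0 < f) (hu : 0 < u) (hs : u ^ 2 = f + z * z)
    (hκ : κ = (m + 2) * p * (4 * ρ * p + 2 * (1 + 2 * ρ * q) + m - 1) / (4 * ρ * p + m))
    (hκ' : κ' = (m + 2) * ((p * (q - p) * (4 * ρ * p + 2 * (1 + 2 * ρ * q) + m - 1) +
      p * (4 * p + 4 * ρ * (p * (q - p)) +
        2 * ((1 + 2 * ρ * q) * Gh m ρ p q))) * (4 * ρ * p + m) -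
      p * (4 * ρ * p + 2 * (1 + 2 * ρ * q) + m - 1) *
        (4 * p + 4 * ρ * (p * (q - p)))) / (4 * ρ * p + m) ^ 2)
    (A B : ℝ) (hA : A = (-1) * κ + (m + 2) * (p * f * (u ^ 2)⁻¹))
    (hB : B = (m + 2) * (z * (u ^ 2)⁻¹)) :
    (m + 1 - 2) * (W * A) / (p * f * u⁻¹) +
      (f / u ^ 3 * (W * A + W * (A ^ 2 - κ' + (m + 2) * (p * f * (q + p) / u ^ 2 -
          2 * (p * f) ^ 2 / (u ^ 2) ^ 2)) * (2 * ρ)) -
        2 * (-(p * f * z) / u ^ 3) * (W * (A * B - 2 * (m + 2) * p * f * z / (u ^ 2) ^ 2)) *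
          (2 * ρ) +
        (p * f * u⁻¹ + (p * f * (q + p) / u - (p * f) ^ 2 / u ^ 3) * (2 * ρ)) *
          (W * (B ^ 2 + (m + 2) * (1 / u ^ 2 - 2 * z ^ 2 / (u ^ 2) ^ 2)))) /
      (p * f ^ 2 * (1 + 2 * ρ * q) / u ^ 4) = 0 := by
  have hy : 0 < 1 + 2 * ρ * q := by positivity
  have hne : 0 < 4 * ρ * p + m := by positivity
  have hf' : f = u ^ 2 - z * z := by linarith
  have e1 : (m + 1 - 2) * (W * A) / (p * f * u⁻¹) +
      (f / u ^ 3 * (W * A + W * (A ^ 2 - κ' + (m + 2) * (p * f * (q + p) / u ^ 2 -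
          2 * (p * f) ^ 2 / (u ^ 2) ^ 2)) * (2 * ρ)) -
        2 * (-(p * f * z) / u ^ 3) * (W * (A * B - 2 * (m + 2) * p * f * z / (u ^ 2) ^ 2)) *
          (2 * ρ) +
        (p * f * u⁻¹ + (p * f * (q + p) / u - (p * f) ^ 2 / u ^ 3) * (2 * ρ)) *
          (W * (B ^ 2 + (m + 2) * (1 / u ^ 2 - 2 * z ^ 2 / (u ^ 2) ^ 2)))) /
      (p * f ^ 2 * (1 + 2 * ρ * q) / u ^ 4) =
      W * u / (p * f * (1 + 2 * ρ * q)) *
        (-(m - 1) * κ * (1 + 2 * ρ * q) - κ + 2 * ρ * (κ ^ 2 - κ') -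
          4 * (m + 2) * ρ * p * κ + (m + 1) * (m + 2) * p * (1 + 2 * ρ * q) +
          (m + 1) * (m + 2) * 2 * ρ * p ^ 2) := by
    rw [hA, hB]
    field_simp
    rw [hf']
    ring
  rw [e1, hκ', hκ, Gh]
  apply mul_eq_zero_of_right
  field_simp
  ring


lemma AM_u (hm : 0 < m) (h : Prof m f p q) (x : Fin (m + 1) → ℝ) :
    ∑ i, ∑ j, ((hess (uf f z) x).det * (hess (uf f z) x)⁻¹ i j) *
      hess (fun y => (hess (uf f z) y).det ^
        (-(((m + 1 : ℕ) : ℝ) + 1) / (((m + 1 : ℕ) : ℝ) + 2))) x i j = 0 := by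
  obtain ⟨-, hf, hp, hq, -⟩ := h _ (rho_nonneg z x)
  have hr := rho_nonneg z x
  have hu := uf_pos h (z := z) x
  have hy : 0 < 1 + 2 * rho z x * q (rho z x) := by positivity
  have hs := uf_sq h (z := z) x
  have hV : Vf f z x = uf f z x ^ 2 := hs.symm
  have hm' : (0:ℝ) < m := by exact_mod_cast hm
  simp only [mul_assoc, ← Finset.mul_sum]
  apply mul_eq_zero_of_right
  rw [w_eq h, hess_w hm h, hess_u h, sm_trace _ _ (UU_gram z x) _ _ _ _ (by positivity)
    (by rw [delta_u h]; positivity), delta_u h, hV]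
  push_cast
  exact final_alg m (rho z x) (p (rho z x)) (q (rho z x)) (f (rho z x)) (x z) (uf f z x) _
    (kap m p q (rho z x)) (kap' m p q (rho z x)) hm' hr hp hq hf hu hs rfl rfl _ _
    (by rw [Af, hV]) (by rw [Bf, hV])

lemma not_quad (h0 : f 0 = 1) :
    ¬ ∃ (A : Matrix (Fin (m + 1)) (Fin (m + 1)) ℝ) (b : Fin (m + 1) → ℝ) (c : ℝ),
      ∀ x, uf f z x = (1 / 2) * (x ⬝ᵥ A *ᵥ x) + b ⬝ᵥ x + c := by
  rintro ⟨A, b, c, h⟩
  have key : ∀ t : ℝ, Real.sqrt (1 + t * t) = (1 / 2) * (t * (A z z * t)) + b z * t + c := by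
    intro t
    have h1 := h (Pi.single z t)
    have h2 : rho z (Pi.single z t) = 0 := by
      have : ∀ i, vv z (Pi.single z t) i = 0 := by
        intro i
        by_cases hi : i = z
        · subst hi; exact vv_self _ _
        · simp [vv, ee, hi]
      simp [rho, this]
    simp only [uf, Vf, h2, h0, Pi.single_eq_same] at h1
    rw [h1]
    simp [mul_comm]
  have s0 : Real.sqrt (1 + 0 * 0) = 1 := by simp
  have s1 : Real.sqrt (1 + (3 / 4) * (3 / 4)) = 5 / 4 := by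
    rw [show (1 + (3 / 4) * (3 / 4) : ℝ) = (5 / 4) ^ 2 by norm_num]
    exact Real.sqrt_sq (by norm_num)
  have s2 : Real.sqrt (1 + (-3 / 4) * (-3 / 4)) = 5 / 4 := by
    rw [show (1 + (-3 / 4) * (-3 / 4) : ℝ) = (5 / 4) ^ 2 by norm_num]
    exact Real.sqrt_sq (by norm_num)
  have s3 : Real.sqrt (1 + (4 / 3) * (4 / 3)) = 5 / 3 := by
    rw [show (1 + (4 / 3) * (4 / 3) : ℝ) = (5 / 3) ^ 2 by norm_num]
    exact Real.sqrt_sq (by norm_num)
  have k0 := key 0
  have k1 := key (3 / 4)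
  have k2 := key (-3 / 4)
  have k3 := key (4 / 3)
  rw [s0] at k0
  rw [s1] at k1
  rw [s2] at k2
  rw [s3] at k3
  linarith

theorem main (n : ℕ) (hn : 10 ≤ n) :
    ∃ u : (Fin n → ℝ) → ℝ, ContDiff ℝ ∞ u ∧ (∀ x, (hess u x).PosDef) ∧
      (∀ x, ∑ i, ∑ j, ((hess u x).det * (hess u x)⁻¹ i j) *
        hess (fun y => (hess u y).det ^ (-((n : ℝ) + 1) / ((n : ℝ) + 2))) x i j = 0) ∧
      ¬ ∃ (A : Matrix (Fin n) (Fin n) ℝ) (b : Fin n → ℝ) (c : ℝ),
        ∀ x, u x = (1 / 2) * (x ⬝ᵥ A *ᵥ x) + b ⬝ᵥ x + c := by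
  obtain ⟨m, rfl⟩ : ∃ m, n = m + 1 := ⟨n - 1, by omega⟩
  obtain ⟨f, p, q, h0, h⟩ := exists_profile m (by omega)
  exact ⟨uf f 0, contDiff_uf h, posDef_u h, AM_u (by omega) h, not_quad h0⟩

end Vale.Agent.P252
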