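import Vale.Agent.P252.Defs

open Matrix
open scoped ContDiff

namespace Vale.Agent.P252

variable {n : ℕ}

/-- Length of a path for the metric `δ_{ij} + u_i u_j`. -/
noncomputable def pathLen (u : (Fin n → ℝ) → ℝ) (γ : ℝ → Fin n → ℝ) : ℝ :=
  ∫ t in (0 : ℝ)..1, Real.sqrt (∑ i, (deriv (fun s => γ s i) t) ^ 2 +
    (∑ i, pd i u (γ t) * deriv (fun s => γ s i) t) ^ 2)

/-- Riemannian distance on `Ω` for the metric `δ_{ij} + u_i u_j`. -/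
noncomputable def gdist (Ω : Set (Fin n → ℝ)) (u : (Fin n → ℝ) → ℝ) (x y : Fin n → ℝ) : ℝ :=
  sInf {L | ∃ γ : ℝ → Fin n → ℝ, ContDiff ℝ 1 γ ∧ (∀ t ∈ Set.Icc (0 : ℝ) 1, γ t ∈ Ω) ∧
    γ 0 = x ∧ γ 1 = y ∧ L = pathLen u γ}

/-- The graph of `u` over `Ω` is complete for the induced Euclidean metric. -/
def EucComplete (Ω : Set (Fin n → ℝ)) (u : (Fin n → ℝ) → ℝ) : Prop :=
  ∀ x : ℕ → Fin n → ℝ, (∀ k, x k ∈ Ω) →
    (∀ ε > 0, ∃ N, ∀ k ≥ N, ∀ l ≥ N, gdist Ω u (x k) (x l) < ε) →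
    ∃ y ∈ Ω, Filter.Tendsto (fun k => gdist Ω u (x k) y) Filter.atTop (nhds 0)

/-- The affine maximal equation on `Ω`. -/
def AM (Ω : Set (Fin n → ℝ)) (u : (Fin n → ℝ) → ℝ) : Prop :=
  ∀ x ∈ Ω, ∑ i, ∑ j, ((hess u x).det * (hess u x)⁻¹ i j) *
    hess (fun y => (hess u y).det ^ (-((n : ℝ) + 1) / ((n : ℝ) + 2))) x i j = 0

/-- The affine Bernstein property in dimension `n`. -/
def Bern (n : ℕ) : Prop :=
  ∀ (Ω : Set (Fin n → ℝ)) (u : (Fin n → ℝ) → ℝ), Ω.Nonempty → IsOpen Ω → Convex ℝ Ω →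
    ContDiffOn ℝ ∞ u Ω → (∀ x ∈ Ω, (hess u x).PosDef) → AM Ω u → EucComplete Ω u →
    Ω = Set.univ ∧ ∃ (A : Matrix (Fin n) (Fin n) ℝ) (b : Fin n → ℝ) (c : ℝ), A.PosDef ∧
      ∀ x, u x = (1 / 2) * (x ⬝ᵥ A *ᵥ x) + b ⬝ᵥ x + c

/-- The entire-graph form of the affine Bernstein property in dimension `n`. -/
def BernEntire (n : ℕ) : Prop :=
  ∀ u : (Fin n → ℝ) → ℝ, ContDiff ℝ ∞ u → (∀ x, (hess u x).PosDef) → AM Set.univ u →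
    ∃ (A : Matrix (Fin n) (Fin n) ℝ) (b : Fin n → ℝ) (c : ℝ),
      ∀ x, u x = (1 / 2) * (x ⬝ᵥ A *ᵥ x) + b ⬝ᵥ x + c

end Vale.Agent.P252
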